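import Mathlib

open MeasureTheory Set

namespace Vale.Agent.Lib.P243w

/-- If `X` and its translate by `N • s` are disjoint, then `X` and its translate by `s`
together have measure at least `(1 + 1 / N) * vol X`. -/
theorem translate_gain {Y : Type*} [AddCommGroup Y] [MeasurableSpace Y] [MeasurableAdd Y]
    [MeasurableSub Y]
    (μ : Measure Y) [μ.IsAddRightInvariant] {X : Set Y} (hX : MeasurableSet X) (s : Y) (N : ℕ)
    (hN : 0 < N) (hd : ∀ z ∈ X, z - N • s ∉ X) :
    μ X + μ X / N ≤ μ (X ∪ {z | z - s ∈ X}) := by
  classical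
  set T : Set Y := {z | z - s ∈ X} with hT
  have hTmeas : MeasurableSet T := by
    have : Measurable (fun z : Y => z - s) := measurable_id.sub_const s
    exact this hX
  have hTμ : μ T = μ X := by
    have : T = (fun z : Y => z + (-s)) ⁻¹' X := by
      ext z; simp [hT, sub_eq_add_neg]
    rw [this]
    exact measure_preimage_add_right μ (-s) X
  set D : Set Y := X \ T with hD
  -- covering of X by translates of D
  have hcover : X ⊆ ⋃ j ∈ Finset.range N, {z | z - j • s ∈ D} := by
    intro z hz
    have hex : ∃ j : ℕ, z - (j + 1) • s ∉ X := by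
      refine ⟨N - 1, ?_⟩
      have : N - 1 + 1 = N := Nat.sub_add_cancel hN
      rw [this]
      exact hd z hz
    let j := Nat.find hex
    have hj : z - (j + 1) • s ∉ X := Nat.find_spec hex
    have hjlt : j < N := by
      by_contra hcon
      push Not at hcon
      have hle : N - 1 < j := by omega
      have := Nat.find_min hex hle
      have h2 : N - 1 + 1 = N := Nat.sub_add_cancel hN
      rw [h2] at this
      exact this (hd z hz)
    have hjX : z - j • s ∈ X := by
      rcases Nat.eq_zero_or_pos j with h0 | hpos
      · rw [h0]; simpa using hz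
      · have hlt : j - 1 < j := by omega
        have := Nat.find_min hex hlt
        push Not at this
        have h3 : j - 1 + 1 = j := Nat.sub_add_cancel hpos
        rw [h3] at this
        exact this
    simp only [mem_iUnion, Finset.mem_range]
    refine ⟨j, hjlt, ?_⟩
    refine ⟨hjX, ?_⟩
    show ¬ (z - j • s - s ∈ X)
    have : z - j • s - s = z - (j + 1) • s := by
      rw [add_nsmul, one_nsmul]; abel
    rw [this]
    exact hj
  have hDtrans : ∀ j : ℕ, μ {z | z - j • s ∈ D} = μ D := by
    intro j
    have : {z | z - j • s ∈ D} = (fun z : Y => z + (-(j • s))) ⁻¹' D := by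
      ext z; simp [sub_eq_add_neg]
    rw [this]
    exact measure_preimage_add_right μ (-(j • s)) D
  have hXle : μ X ≤ N * μ D := by
    calc μ X ≤ μ (⋃ j ∈ Finset.range N, {z | z - j • s ∈ D}) := measure_mono hcover
      _ ≤ ∑ j ∈ Finset.range N, μ {z | z - j • s ∈ D} := measure_biUnion_finset_le _ _
      _ = ∑ j ∈ Finset.range N, μ D := by simp only [hDtrans]
      _ = N * μ D := by simp
  have hdiv : μ X / N ≤ μ D := by
    have hN0 : (N : ENNReal) ≠ 0 := by exact_mod_cast hN.ne'
    have hNt : (N : ENNReal) ≠ ⊤ := ENNReal.natCast_ne_top N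
    rw [ENNReal.div_le_iff hN0 hNt, mul_comm]
    exact hXle
  have hunion : X ∪ T = T ∪ D := by
    ext z; by_cases h : z ∈ T <;> simp [hD, h]
  have hdisj : Disjoint T D := by
    rw [Set.disjoint_left]; intro z hz hz'; exact hz'.2 hz
  have hDmeas : MeasurableSet D := hX.diff hTmeas
  rw [hunion, measure_union hdisj hDmeas, hTμ]
  gcongr

end Vale.Agent.Lib.P243w
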