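import Mathlib
import Vale.Agent.Lib.P243w.Translates

open MeasureTheory Set Pointwise

namespace Vale.Agent.Lib.P243w

abbrev Y2 := Fin 2 → ℝ

/-- vertical fiber of a subset of `Y2 × ℝ` -/
def fib (K : Set (Y2 × ℝ)) (y : Y2) : Set ℝ := {t | (y, t) ∈ K}

/-- real length of the fiber -/
noncomputable def flen (K : Set (Y2 × ℝ)) (y : Y2) : ℝ := (volume (fib K y)).toReal

/-- shadow -/
def shadow (K : Set (Y2 × ℝ)) : Set Y2 := Prod.fst '' K

section
variable {K : Set (Y2 × ℝ)}

theorem fib_compact (hKc : IsCompact K) (y : Y2) : IsCompact (fib K y) := by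
  have hclosed : IsClosed (fib K y) := by
    have : Continuous (fun t : ℝ => (y, t)) := by fun_prop
    exact hKc.isClosed.preimage this
  have hbdd : Bornology.IsBounded (fib K y) := by
    obtain ⟨R, hR⟩ := hKc.isBounded.subset_closedBall (0 : Y2 × ℝ)
    refine (Metric.isBounded_closedBall (x := (0 : ℝ)) (r := R)).subset ?_
    intro t ht
    have := hR ht
    simp only [Metric.mem_closedBall, dist_zero_right] at this ⊢
    exact le_trans (by simp) this
  exact Metric.isCompact_of_isClosed_isBounded hclosed hbdd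

theorem fib_convex (hKv : Convex ℝ K) (y : Y2) : Convex ℝ (fib K y) := by
  intro s hs t ht a b ha hb hab
  show (y, a • s + b • t) ∈ K
  have := hKv hs ht ha hb hab
  have h2 : a • (y, s) + b • (y, t) = (y, a • s + b • t) := by
    ext i
    · simp only [Prod.fst_add, Prod.smul_fst, Pi.add_apply, Pi.smul_apply, smul_eq_mul]
      rw [← add_mul, hab, one_mul]
    · simp
  rwa [h2] at this

theorem fib_eq_Icc (hKc : IsCompact K) (hKv : Convex ℝ K) {y : Y2} (hy : y ∈ shadow K) :
    ∃ t₂ t₁ : ℝ, t₂ ≤ t₁ ∧ fib K y = Icc t₂ t₁ := by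
  obtain ⟨⟨y0, t0⟩, h0, rfl⟩ := hy
  have hne : (fib K y0).Nonempty := ⟨t0, h0⟩
  have hc := fib_compact hKc y0
  have hv := fib_convex hKv y0
  refine ⟨sInf (fib K y0), sSup (fib K y0), ?_, ?_⟩
  · exact csInf_le_csSup hne hc.bddBelow hc.bddAbove
  · apply Subset.antisymm
    · intro t ht
      exact ⟨csInf_le hc.bddBelow ht, le_csSup hc.bddAbove ht⟩
    · have hinf := hc.sInf_mem hne
      have hsup := hc.sSup_mem hne
      exact hv.ordConnected.out hinf hsup

theorem flen_nonneg (y : Y2) : 0 ≤ flen K y := ENNReal.toReal_nonneg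

theorem flen_of_Icc {y : Y2} {t₂ t₁ : ℝ} (h : t₂ ≤ t₁) (hf : fib K y = Icc t₂ t₁) :
    flen K y = t₁ - t₂ := by
  unfold flen
  rw [hf, Real.volume_Icc, ENNReal.toReal_ofReal (by linarith)]

theorem volume_fib_eq (hKc : IsCompact K) (y : Y2) :
    volume (fib K y) = ENNReal.ofReal (flen K y) := by
  unfold flen
  rw [ENNReal.ofReal_toReal (fib_compact hKc y).measure_lt_top.ne]

theorem measurable_flen (hKm : MeasurableSet K) : Measurable (flen K) := by
  have h : Measurable (fun y : Y2 => volume (Prod.mk y ⁻¹' K)) :=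
    measurable_measure_prodMk_left hKm
  exact h.ennreal_toReal

theorem volume_eq_lintegral_flen (hKc : IsCompact K) :
    volume K = ∫⁻ y, ENNReal.ofReal (flen K y) := by
  rw [Measure.volume_eq_prod, Measure.prod_apply hKc.measurableSet]
  refine lintegral_congr fun y => ?_
  have : Prod.mk y ⁻¹' K = fib K y := rfl
  rw [this, volume_fib_eq hKc y]

theorem volume_eq_layer (hKc : IsCompact K) :
    volume K = ∫⁻ t in Ioi (0 : ℝ), volume {y | t ≤ flen K y} := by
  rw [volume_eq_lintegral_flen hKc]
  apply lintegral_eq_lintegral_meas_le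
  · exact Filter.Eventually.of_forall fun y => flen_nonneg y
  · exact (measurable_flen hKc.measurableSet).aemeasurable

/-- concavity of the fiber length along segments -/
theorem flen_combo (hKc : IsCompact K) (hKv : Convex ℝ K) {y z : Y2} (hy : y ∈ shadow K)
    (hz : z ∈ shadow K) {lam : ℝ} (h0 : 0 ≤ lam) (h1 : lam ≤ 1) :
    lam * flen K y ≤ flen K ((1 - lam) • z + lam • y) := by
  obtain ⟨t₂, t₁, hle, hf⟩ := fib_eq_Icc hKc hKv hy
  obtain ⟨⟨z0, tz⟩, hzK, rfl⟩ := hz
  simp only at hzK ⊢
  rw [flen_of_Icc hle hf]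
  set w := (1 - lam) • z0 + lam • y with hw
  have hsub : Icc ((1 - lam) * tz + lam * t₂) ((1 - lam) * tz + lam * t₁) ⊆ fib K w := by
    intro t ht
    -- t = (1-lam) tz + lam tau with tau in Icc t2 t1
    by_cases hl : lam = 0
    · subst hl
      have : t = tz := by
        have h1' := ht.1; have h2' := ht.2
        simp only [zero_mul, add_zero, sub_zero, one_mul] at h1' h2'
        linarith
      show (w, t) ∈ K
      rw [hw, this]
      simpa using hzK
    · have hlpos : 0 < lam := lt_of_le_of_ne h0 (Ne.symm hl)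
      set tau := (t - (1 - lam) * tz) / lam with htau
      have htt : t = (1 - lam) * tz + lam * tau := by
        rw [htau]; field_simp; ring
      have htaumem : tau ∈ Icc t₂ t₁ := by
        constructor
        · rw [htau, le_div_iff₀ hlpos]; nlinarith [ht.1]
        · rw [htau, div_le_iff₀ hlpos]; nlinarith [ht.2]
      have hyK : (y, tau) ∈ K := by
        have : tau ∈ fib K y := by rw [hf]; exact htaumem
        exact this
      have := hKv hzK hyK (sub_nonneg.mpr h1) h0 (by ring)
      show (w, t) ∈ K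
      have h2 : (1 - lam) • (z0, tz) + lam • (y, tau) = (w, t) := by
        ext i
        · simp [hw]
        · simp [htt]
      rwa [h2] at this
  have hmono : volume (Icc ((1 - lam) * tz + lam * t₂) ((1 - lam) * tz + lam * t₁))
      ≤ volume (fib K w) := measure_mono hsub
  rw [Real.volume_Icc] at hmono
  have hval : (1 - lam) * tz + lam * t₁ - ((1 - lam) * tz + lam * t₂) = lam * (t₁ - t₂) := by ring
  rw [hval] at hmono
  have hnn : 0 ≤ lam * (t₁ - t₂) := mul_nonneg h0 (by linarith)
  have := ENNReal.toReal_mono (fib_compact hKc w).measure_lt_top.ne hmono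
  rwa [ENNReal.toReal_ofReal hnn] at this

/-- homothetic copy of the shadow -/
def hom (X : Set Y2) (y : Y2) (lam : ℝ) : Set Y2 := (fun z => (1 - lam) • z + lam • y) '' X

theorem hom_volume (X : Set Y2) (y : Y2) (lam : ℝ) :
    volume (hom X y lam) = ENNReal.ofReal ((1 - lam) ^ 2) * volume X := by
  have h1 : hom X y lam = (fun z => z + lam • y) '' ((1 - lam) • X) := by
    ext w
    constructor
    · rintro ⟨z, hz, rfl⟩
      exact ⟨(1 - lam) • z, Set.smul_mem_smul_set hz, rfl⟩
    · rintro ⟨_, ⟨z, hz, rfl⟩, rfl⟩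
      exact ⟨z, hz, rfl⟩
  rw [h1, image_add_right, measure_preimage_add_right, Measure.addHaar_smul]
  congr 2
  simp [abs_of_nonneg (sq_nonneg (1 - lam))]

theorem hom_compact {X : Set Y2} (hX : IsCompact X) (y : Y2) (lam : ℝ) : IsCompact (hom X y lam) :=
  hX.image (by fun_prop)

theorem shadow_compact (hKc : IsCompact K) : IsCompact (shadow K) :=
  hKc.image continuous_fst

end

end Vale.Agent.Lib.P243w
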