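import Mathlib
import Vale.Agent.Lib.P243w.Fibers

open MeasureTheory Set Pointwise

namespace Vale.Agent.Lib.P243w

theorem lintegral_sq_ramp {L : ℝ} (hL : 0 < L) :
    ∫⁻ t in Ioo (0 : ℝ) L, ENNReal.ofReal ((1 - t / L) ^ 2) = ENNReal.ofReal (L / 3) := by
  have hder : ∀ t ∈ uIcc (0 : ℝ) L,
      HasDerivAt (fun t : ℝ => -(L / 3) * (1 - t / L) ^ 3) ((1 - t / L) ^ 2) t := by
    intro t _
    have h1 : HasDerivAt (fun t : ℝ => 1 - t / L) (-(1 / L)) t := by
      have := ((hasDerivAt_id t).div_const L).const_sub 1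
      simpa using this
    have hL0 : L ≠ 0 := hL.ne'
    refine ((h1.fun_pow 3).const_mul (-(L / 3))).congr_deriv ?_
    norm_num
    field_simp
  have hcont : Continuous (fun t : ℝ => (1 - t / L) ^ 2) := by fun_prop
  have hint : ∫ t in (0 : ℝ)..L, (1 - t / L) ^ 2 = L / 3 := by
    rw [intervalIntegral.integral_eq_sub_of_hasDerivAt hder
      (hcont.intervalIntegrable _ _)]
    field_simp
    ring
  have hintegrable : IntegrableOn (fun t : ℝ => (1 - t / L) ^ 2) (Ioo 0 L) :=
    (hcont.integrableOn_Icc (a := 0) (b := L)).mono_set Ioo_subset_Icc_self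
  rw [← hint, intervalIntegral.integral_of_le hL.le, integral_Ioc_eq_integral_Ioo,
    ofReal_integral_eq_lintegral_ofReal hintegrable]
  filter_upwards with t using sq_nonneg _

section
variable {K : Set (Y2 × ℝ)}

theorem hom_subset_level (hKc : IsCompact K) (hKv : Convex ℝ K) {y : Y2} (hy : y ∈ shadow K)
    {L' t : ℝ} (hL' : 0 < L') (hle : L' ≤ flen K y) (ht0 : 0 < t) (htL : t < L') :
    hom (shadow K) y (t / L') ⊆ {w | t ≤ flen K w} := by
  rintro _ ⟨z, hz, rfl⟩
  have hl0 : 0 ≤ t / L' := by positivity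
  have hl1 : t / L' ≤ 1 := by rw [div_le_one hL']; exact htL.le
  have := flen_combo hKc hKv hy hz hl0 hl1
  show t ≤ flen K _
  refine le_trans ?_ this
  calc t = t / L' * L' := by field_simp
    _ ≤ t / L' * flen K y := by gcongr

/-- the basic chord inequality `L |X| ≤ 3 V` -/
theorem volume_ge_simple (hKc : IsCompact K) (hKv : Convex ℝ K) {y : Y2} (hy : y ∈ shadow K) :
    ENNReal.ofReal (flen K y / 3) * volume (shadow K) ≤ volume K := by
  set L := flen K y with hLdef
  rcases (flen_nonneg (K := K) y).eq_or_lt with h0 | hpos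
  · rw [hLdef, ← h0]; simp
  have hL : 0 < L := hpos
  rw [volume_eq_layer hKc]
  calc ENNReal.ofReal (L / 3) * volume (shadow K)
      = ∫⁻ t in Ioo (0 : ℝ) L, ENNReal.ofReal ((1 - t / L) ^ 2) * volume (shadow K) := by
        rw [lintegral_mul_const' _ _ (shadow_compact hKc).measure_lt_top.ne,
          lintegral_sq_ramp hL]
    _ ≤ ∫⁻ t in Ioo (0 : ℝ) L, volume {w | t ≤ flen K w} := by
        refine setLIntegral_mono' measurableSet_Ioo ?_
        intro t ht
        rw [← hom_volume]
        exact measure_mono (hom_subset_level hKc hKv hy hL le_rfl ht.1 ht.2)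
    _ ≤ ∫⁻ t in Ioi (0 : ℝ), volume {w | t ≤ flen K w} := by
        exact lintegral_mono_set (fun t ht => ht.1)

/-- the plateau inequality: two long parallel chords give extra volume -/
theorem volume_ge_plateau (hKc : IsCompact K) (hKv : Convex ℝ K) {y y' : Y2}
    (hy : y ∈ shadow K) (hy' : y' ∈ shadow K) {L' : ℝ} (hL' : 0 < L')
    (h1 : L' ≤ flen K y) (h2 : L' ≤ flen K y') {N : ℕ} (hN : 0 < N)
    (hsep : ∀ z ∈ shadow K, ∀ z' ∈ shadow K, ∀ lam : ℝ, 1 / 4 ≤ lam → lam ≤ 3 / 4 →
      (1 - lam) • (z - z') ≠ ((N : ℝ) * lam) • (y' - y)) :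
    ENNReal.ofReal (L' * (1 / 3 + 1 / (32 * N))) * volume (shadow K) ≤ volume K := by
  set A := volume (shadow K) with hA
  have hAfin : A ≠ ⊤ := (shadow_compact hKc).measure_lt_top.ne
  set c : ENNReal := ENNReal.ofReal (1 / (16 * N)) * A with hc
  have hNpos : (0 : ℝ) < N := by exact_mod_cast hN
  have hpoint : ∀ t ∈ Ioo (0 : ℝ) L',
      ENNReal.ofReal ((1 - t / L') ^ 2) * A
        + (Icc (L' / 4) (3 * L' / 4)).indicator (fun _ => c) t
      ≤ volume {w | t ≤ flen K w} := by
    intro t ht
    by_cases hmid : t ∈ Icc (L' / 4) (3 * L' / 4)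
    · rw [indicator_of_mem hmid]
      set lam := t / L' with hlam
      have hl1 : 1 / 4 ≤ lam := by
        rw [hlam, le_div_iff₀ hL']; linarith [hmid.1]
      have hl2 : lam ≤ 3 / 4 := by
        rw [hlam, div_le_iff₀ hL']; linarith [hmid.2]
      set H := hom (shadow K) y lam with hH
      have hHm : MeasurableSet H := (hom_compact (shadow_compact hKc) y lam).measurableSet
      set s : Y2 := lam • (y' - y) with hs
      have hgain := translate_gain (volume : Measure Y2) hHm s N hN (by
        rintro _ ⟨a, ha, rfl⟩ ⟨b, hb, hab⟩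
        apply hsep a ha b hb lam hl1 hl2
        have hab' : (1 - lam) • b + lam • y = (1 - lam) • a + lam • y - N • s := hab
        have : (1 - lam) • (a - b) = N • s := by
          have h3 : (1 - lam) • a + lam • y - ((1 - lam) • b + lam • y) = N • s := by
            rw [hab']; abel
          rw [smul_sub]
          have h4 : (1 - lam) • a + lam • y - ((1 - lam) • b + lam • y)
            = (1 - lam) • a - (1 - lam) • b := by abel
          rwa [h4] at h3
        rw [this, hs, ← Nat.cast_smul_eq_nsmul ℝ, smul_smul])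
      have hsubT : H ∪ {z | z - s ∈ H} ⊆ {w | t ≤ flen K w} := by
        apply union_subset
        · exact hom_subset_level hKc hKv hy hL' h1 ht.1 ht.2
        · intro z hz
          have hH' : z - s ∈ H := hz
          obtain ⟨a, ha, hae⟩ := hH'
          have hze : z = (1 - lam) • a + lam • y' := by
            have h5 : (1 - lam) • a + lam • y = z - s := hae
            have : z = ((1 - lam) • a + lam • y) + s := by rw [h5]; abel
            rw [this, hs, smul_sub]; abel
          have : z ∈ hom (shadow K) y' lam := ⟨a, ha, hze.symm⟩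
          exact hom_subset_level hKc hKv hy' hL' h2 ht.1 ht.2 this
      have hvolH : volume H = ENNReal.ofReal ((1 - lam) ^ 2) * A := hom_volume _ _ _
      refine le_trans ?_ (le_trans hgain (measure_mono hsubT))
      rw [hvolH]
      gcongr
      have hN0 : (N : ENNReal) ≠ 0 := by exact_mod_cast hN.ne'
      have hNt : (N : ENNReal) ≠ ⊤ := ENNReal.natCast_ne_top N
      rw [ENNReal.le_div_iff_mul_le (Or.inl hN0) (Or.inl hNt), hc]
      have h6 : ENNReal.ofReal (1 / (16 * (N : ℝ))) * A * (N : ENNReal)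
          = ENNReal.ofReal (1 / 16) * A := by
        rw [mul_right_comm, ← ENNReal.ofReal_natCast, ← ENNReal.ofReal_mul (by positivity)]
        congr 2
        field_simp
      rw [h6]
      gcongr
      nlinarith
    · rw [indicator_of_notMem hmid, add_zero, ← hom_volume]
      exact measure_mono (hom_subset_level hKc hKv hy hL' h1 ht.1 ht.2)
  have hsubIcc : Icc (L' / 4) (3 * L' / 4) ⊆ Ioo (0 : ℝ) L' := by
    intro t ht
    constructor <;> nlinarith [ht.1, ht.2]
  have hEint : ∫⁻ t in Ioo (0 : ℝ) L', (Icc (L' / 4) (3 * L' / 4)).indicator (fun _ => c) t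
      = c * ENNReal.ofReal (L' / 2) := by
    rw [lintegral_indicator_const measurableSet_Icc,
      Measure.restrict_apply measurableSet_Icc, inter_eq_left.mpr hsubIcc, Real.volume_Icc]
    congr 2
    ring
  have hGmeas : Measurable fun t : ℝ => ENNReal.ofReal ((1 - t / L') ^ 2) * A := by
    have : Continuous fun t : ℝ => (1 - t / L') ^ 2 := by fun_prop
    exact this.measurable.ennreal_ofReal.mul_const A
  have hGint : ∫⁻ t in Ioo (0 : ℝ) L', ENNReal.ofReal ((1 - t / L') ^ 2) * A
      = ENNReal.ofReal (L' / 3) * A := by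
    rw [lintegral_mul_const' _ _ hAfin, lintegral_sq_ramp hL']
  rw [volume_eq_layer hKc]
  calc ENNReal.ofReal (L' * (1 / 3 + 1 / (32 * N))) * A
      = ENNReal.ofReal (L' / 3) * A + c * ENNReal.ofReal (L' / 2) := by
        have h7 : L' * (1 / 3 + 1 / (32 * (N : ℝ))) = L' / 3 + L' / (32 * N) := by ring
        rw [h7, ENNReal.ofReal_add (by positivity) (by positivity), add_mul, hc]
        congr 1
        rw [mul_right_comm, ← ENNReal.ofReal_mul (by positivity)]
        congr 2
        field_simp
        ring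
    _ = ∫⁻ t in Ioo (0 : ℝ) L', (ENNReal.ofReal ((1 - t / L') ^ 2) * A
          + (Icc (L' / 4) (3 * L' / 4)).indicator (fun _ => c) t) := by
        rw [lintegral_add_left hGmeas, hGint, hEint]
    _ ≤ ∫⁻ t in Ioo (0 : ℝ) L', volume {w | t ≤ flen K w} :=
        setLIntegral_mono' measurableSet_Ioo hpoint
    _ ≤ ∫⁻ t in Ioi (0 : ℝ), volume {w | t ≤ flen K w} :=
        lintegral_mono_set (fun t ht => ht.1)

end

end Vale.Agent.Lib.P243w
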