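import Mathlib

open MeasureTheory Set
open scoped Matrix

namespace Vale.Agent.Lib.P243w

abbrev F3 := Fin 3 → ℝ

theorem dot_eq (x y : F3) : x ⬝ᵥ y = x 0 * y 0 + x 1 * y 1 + x 2 * y 2 := by
  simp [dotProduct, Fin.sum_univ_three]

theorem dot_sub_left (x y z : F3) : (x - y) ⬝ᵥ z = x ⬝ᵥ z - y ⬝ᵥ z := sub_dotProduct x y z

theorem cs3 (x y : F3) : (x ⬝ᵥ y) ^ 2 ≤ (x ⬝ᵥ x) * (y ⬝ᵥ y) := by
  simp only [dot_eq]
  nlinarith [sq_nonneg (x 0 * y 1 - x 1 * y 0), sq_nonneg (x 0 * y 2 - x 2 * y 0),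
    sq_nonneg (x 1 * y 2 - x 2 * y 1)]

/-- The set of points of `K` close to two supporting planes with well separated normals. -/
def W (K : Set F3) (a c0 : ℝ) : Set F3 :=
  {x | x ∈ K ∧ ∃ n n' : F3, n ⬝ᵥ n = 1 ∧ n' ⬝ᵥ n' = 1 ∧ n ⬝ᵥ n' ≤ c0 ∧
    (∀ z ∈ K, (z - x) ⬝ᵥ n ≤ a) ∧ (∀ z ∈ K, (z - x) ⬝ᵥ n' ≤ a)}

/-- the sphere -/
def sph : Set F3 := {n | n ⬝ᵥ n = 1}

theorem coord_le_one {n : F3} (hn : n ⬝ᵥ n = 1) (j : Fin 3) : |n j| ≤ 1 := by
  rw [dot_eq] at hn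
  rw [abs_le]
  fin_cases j <;> simp <;> constructor <;>
    nlinarith [sq_nonneg (n 0), sq_nonneg (n 1), sq_nonneg (n 2)]

theorem sph_compact : IsCompact sph := by
  have hclosed : IsClosed sph := by
    have hc : Continuous (fun n : F3 => n ⬝ᵥ n) := by
      simp only [dot_eq]
      fun_prop
    exact isClosed_eq hc continuous_const
  refine IsCompact.of_isClosed_subset (isCompact_Icc (a := fun _ => (-1 : ℝ)) (b := fun _ => 1))
    hclosed ?_
  intro n hn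
  constructor <;> intro j
  · exact (abs_le.mp (coord_le_one hn j)).1
  · exact (abs_le.mp (coord_le_one hn j)).2

theorem continuous_dot_fst (z : F3) :
    Continuous (fun q : F3 × F3 × F3 => (z - q.1) ⬝ᵥ q.2.1) := by
  simp only [dot_eq]
  fun_prop

theorem continuous_dot_snd (z : F3) :
    Continuous (fun q : F3 × F3 × F3 => (z - q.1) ⬝ᵥ q.2.2) := by
  simp only [dot_eq]
  fun_prop

/-- the constraint set is closed -/
theorem isClosed_depth (K : Set F3) (a : ℝ) :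
    IsClosed {q : F3 × F3 × F3 | (∀ z ∈ K, (z - q.1) ⬝ᵥ q.2.1 ≤ a) ∧
      (∀ z ∈ K, (z - q.1) ⬝ᵥ q.2.2 ≤ a)} := by
  have h1 : IsClosed {q : F3 × F3 × F3 | ∀ z ∈ K, (z - q.1) ⬝ᵥ q.2.1 ≤ a} := by
    simp only [ofPred_forall]
    exact isClosed_iInter fun z => isClosed_iInter fun _ =>
      isClosed_le (continuous_dot_fst z) continuous_const
  have h2 : IsClosed {q : F3 × F3 × F3 | ∀ z ∈ K, (z - q.1) ⬝ᵥ q.2.2 ≤ a} := by
    simp only [ofPred_forall]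
    exact isClosed_iInter fun z => isClosed_iInter fun _ =>
      isClosed_le (continuous_dot_snd z) continuous_const
  exact h1.inter h2

theorem W_compact {K : Set F3} (hKc : IsCompact K) (a c0 : ℝ) : IsCompact (W K a c0) := by
  set T : Set (F3 × F3 × F3) := K ×ˢ sph ×ˢ sph with hT
  have hTc : IsCompact T := hKc.prod (sph_compact.prod sph_compact)
  set C : Set (F3 × F3 × F3) := T ∩ ({q | q.2.1 ⬝ᵥ q.2.2 ≤ c0} ∩
    {q | (∀ z ∈ K, (z - q.1) ⬝ᵥ q.2.1 ≤ a) ∧ (∀ z ∈ K, (z - q.1) ⬝ᵥ q.2.2 ≤ a)}) with hC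
  have hclosed : IsClosed ({q : F3 × F3 × F3 | q.2.1 ⬝ᵥ q.2.2 ≤ c0} ∩
      {q | (∀ z ∈ K, (z - q.1) ⬝ᵥ q.2.1 ≤ a) ∧ (∀ z ∈ K, (z - q.1) ⬝ᵥ q.2.2 ≤ a)}) := by
    refine IsClosed.inter ?_ (isClosed_depth K a)
    refine isClosed_le ?_ continuous_const
    simp only [dot_eq]
    fun_prop
  have hCc : IsCompact C := hTc.inter_right hclosed
  have : W K a c0 = Prod.fst '' C := by
    ext x
    constructor
    · rintro ⟨hx, n, n', hn, hn', hc, h1, h2⟩
      exact ⟨(x, n, n'), ⟨⟨hx, hn, hn'⟩, hc, h1, h2⟩, rfl⟩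
    · rintro ⟨⟨x', n, n'⟩, ⟨⟨hx, hn, hn'⟩, hc, h1, h2⟩, rfl⟩
      exact ⟨hx, n, n', hn, hn', hc, h1, h2⟩
  rw [this]
  exact hCc.image continuous_fst

/-- the `k`-th component of the cross product, up to sign -/
def Dk (k : Fin 3) (n n' : F3) : ℝ :=
  n (k.succAbove 0) * n' (k.succAbove 1) - n (k.succAbove 1) * n' (k.succAbove 0)

theorem sum_Dk_sq (n n' : F3) :
    (Dk 0 n n') ^ 2 + (Dk 1 n n') ^ 2 + (Dk 2 n n') ^ 2
      = (n ⬝ᵥ n) * (n' ⬝ᵥ n') - (n ⬝ᵥ n') ^ 2 := by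
  have h00 : (0 : Fin 3).succAbove 0 = 1 := rfl
  have h01 : (0 : Fin 3).succAbove 1 = 2 := rfl
  have h10 : (1 : Fin 3).succAbove 0 = 0 := rfl
  have h11 : (1 : Fin 3).succAbove 1 = 2 := rfl
  have h20 : (2 : Fin 3).succAbove 0 = 0 := rfl
  have h21 : (2 : Fin 3).succAbove 1 = 1 := rfl
  simp only [Dk, h00, h01, h10, h11, h20, h21, dot_eq]
  ring

/-- A piece of the wet set: normals in a fixed patch in the two coordinates other than `k`. -/
def piece (K : Set F3) (a s h : ℝ) (k : Fin 3) (p p' : Fin 2 → ℤ) : Set F3 :=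
  {x | x ∈ K ∧ ∃ n n' : F3, n ⬝ᵥ n = 1 ∧ n' ⬝ᵥ n' = 1 ∧
    (∀ z ∈ K, (z - x) ⬝ᵥ n ≤ a) ∧ (∀ z ∈ K, (z - x) ⬝ᵥ n' ≤ a) ∧
    s ^ 2 ≤ (Dk k n n') ^ 2 ∧
    (∀ j, |n (k.succAbove j) - h * p j| ≤ h) ∧ (∀ j, |n' (k.succAbove j) - h * p' j| ≤ h)}

theorem piece_compact {K : Set F3} (hKc : IsCompact K) (a s h : ℝ) (k : Fin 3)
    (p p' : Fin 2 → ℤ) : IsCompact (piece K a s h k p p') := by
  set T : Set (F3 × F3 × F3) := K ×ˢ sph ×ˢ sph with hT
  have hTc : IsCompact T := hKc.prod (sph_compact.prod sph_compact)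
  set C : Set (F3 × F3 × F3) := T ∩ ({q | (∀ z ∈ K, (z - q.1) ⬝ᵥ q.2.1 ≤ a) ∧
      (∀ z ∈ K, (z - q.1) ⬝ᵥ q.2.2 ≤ a)} ∩ ({q | s ^ 2 ≤ (Dk k q.2.1 q.2.2) ^ 2} ∩
      ({q | ∀ j, |q.2.1 (k.succAbove j) - h * p j| ≤ h} ∩
        {q | ∀ j, |q.2.2 (k.succAbove j) - h * p' j| ≤ h}))) with hC
  have hclosed : IsClosed ({q : F3 × F3 × F3 | (∀ z ∈ K, (z - q.1) ⬝ᵥ q.2.1 ≤ a) ∧
      (∀ z ∈ K, (z - q.1) ⬝ᵥ q.2.2 ≤ a)} ∩ ({q | s ^ 2 ≤ (Dk k q.2.1 q.2.2) ^ 2} ∩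
      ({q | ∀ j, |q.2.1 (k.succAbove j) - h * p j| ≤ h} ∩
        {q | ∀ j, |q.2.2 (k.succAbove j) - h * p' j| ≤ h}))) := by
    refine (isClosed_depth K a).inter (IsClosed.inter ?_ (IsClosed.inter ?_ ?_))
    · refine isClosed_le continuous_const ?_
      simp only [Dk]
      fun_prop
    · simp only [ofPred_forall]
      exact isClosed_iInter fun j => isClosed_le (by fun_prop) continuous_const
    · simp only [ofPred_forall]
      exact isClosed_iInter fun j => isClosed_le (by fun_prop) continuous_const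
  have hCc : IsCompact C := hTc.inter_right hclosed
  have : piece K a s h k p p' = Prod.fst '' C := by
    ext x
    constructor
    · rintro ⟨hx, n, n', hn, hn', h1, h2, h3, h4, h5⟩
      exact ⟨(x, n, n'), ⟨⟨hx, hn, hn'⟩, ⟨h1, h2⟩, h3, h4, h5⟩, rfl⟩
    · rintro ⟨⟨x', n, n'⟩, ⟨⟨hx, hn, hn'⟩, ⟨h1, h2⟩, h3, h4, h5⟩, rfl⟩
      exact ⟨hx, n, n', hn, hn', h1, h2, h3, h4, h5⟩
  rw [this]
  exact hCc.image continuous_fst

/-- dot product of a vector with vanishing `k`-th coordinate -/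
theorem dot_of_coord_eq {k : Fin 3} {z x n : F3} (hk : z k = x k) :
    (z - x) ⬝ᵥ n = (z (k.succAbove 0) - x (k.succAbove 0)) * n (k.succAbove 0)
      + (z (k.succAbove 1) - x (k.succAbove 1)) * n (k.succAbove 1) := by
  simp only [dotProduct]
  rw [Fin.sum_univ_succAbove _ k]
  simp [Fin.sum_univ_two, hk]

/-- The slices of a piece have small diameter. -/
theorem piece_slice {K : Set F3} {a s h : ℝ} {k : Fin 3} {p p' : Fin 2 → ℤ}
    (hs : 0 < s) (hh : 8 * h ≤ s / 2) (hh0 : 0 < h)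
    {x y : F3} (hx : x ∈ piece K a s h k p p') (hy : y ∈ piece K a s h k p p') (hk : x k = y k) :
    |y (k.succAbove 0) - x (k.succAbove 0)| + |y (k.succAbove 1) - x (k.succAbove 1)|
      ≤ 8 * a / s := by
  obtain ⟨hxK, n, n', hn, hn', h1, h2, h3, h4, h5⟩ := hx
  obtain ⟨hyK, m, m', hm, hm', h1', h2', _, h4', h5'⟩ := hy
  set i0 := k.succAbove 0 with hi0
  set i1 := k.succAbove 1 with hi1
  set d0 := y i0 - x i0 with hd0
  set d1 := y i1 - x i1 with hd1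
  set T := |d0| + |d1| with hT
  have hT0 : 0 ≤ T := by positivity
  -- first family of inequalities
  have e1 : d0 * n i0 + d1 * n i1 ≤ a := by
    have := h1 y hyK
    rwa [dot_of_coord_eq hk.symm] at this
  have e2 : -(d0 * m i0 + d1 * m i1) ≤ a := by
    have := h1' x hxK
    rw [dot_of_coord_eq hk] at this
    have h6 : (x i0 - y i0) = -d0 := by rw [hd0]; ring
    have h7 : (x i1 - y i1) = -d1 := by rw [hd1]; ring
    rw [← hi0, ← hi1, h6, h7] at this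
    linarith
  have e3 : d0 * n' i0 + d1 * n' i1 ≤ a := by
    have := h2 y hyK
    rwa [dot_of_coord_eq hk.symm] at this
  have e4 : -(d0 * m' i0 + d1 * m' i1) ≤ a := by
    have := h2' x hxK
    rw [dot_of_coord_eq hk] at this
    have h6 : (x i0 - y i0) = -d0 := by rw [hd0]; ring
    have h7 : (x i1 - y i1) = -d1 := by rw [hd1]; ring
    rw [← hi0, ← hi1, h6, h7] at this
    linarith
  -- patches
  have cl : ∀ (u v : F3) (q : Fin 2 → ℤ) (j : Fin 2), |u (k.succAbove j) - h * q j| ≤ h →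
      |v (k.succAbove j) - h * q j| ≤ h → |u (k.succAbove j) - v (k.succAbove j)| ≤ 2 * h := by
    intro u v q j hu hv
    rw [abs_le] at *
    constructor <;> linarith [hu.1, hu.2, hv.1, hv.2]
  have c0 := cl n m p 0 (h4 0) (h4' 0)
  have c1 := cl n m p 1 (h4 1) (h4' 1)
  have c0' := cl n' m' p' 0 (h5 0) (h5' 0)
  have c1' := cl n' m' p' 1 (h5 1) (h5' 1)
  rw [← hi0] at c0 c0'
  rw [← hi1] at c1 c1'
  have err : ∀ (u v : F3), |u i0 - v i0| ≤ 2 * h → |u i1 - v i1| ≤ 2 * h →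
      |d0 * u i0 + d1 * u i1 - (d0 * v i0 + d1 * v i1)| ≤ 2 * h * T := by
    intro u v h0' h1''
    have : d0 * u i0 + d1 * u i1 - (d0 * v i0 + d1 * v i1)
        = d0 * (u i0 - v i0) + d1 * (u i1 - v i1) := by ring
    rw [this]
    calc |d0 * (u i0 - v i0) + d1 * (u i1 - v i1)|
        ≤ |d0 * (u i0 - v i0)| + |d1 * (u i1 - v i1)| := abs_add_le _ _
      _ = |d0| * |u i0 - v i0| + |d1| * |u i1 - v i1| := by rw [abs_mul, abs_mul]
      _ ≤ |d0| * (2 * h) + |d1| * (2 * h) := by gcongr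
      _ = 2 * h * T := by rw [hT]; ring
  have err1 := err n m c0 c1
  have err2 := err n' m' c0' c1'
  set A := d0 * n i0 + d1 * n i1 with hA
  set B := d0 * n' i0 + d1 * n' i1 with hB
  have hAabs : |A| ≤ a + 2 * h * T := by
    rw [abs_le] at err1 ⊢
    constructor <;> linarith [err1.1, err1.2]
  have hBabs : |B| ≤ a + 2 * h * T := by
    rw [abs_le] at err2 ⊢
    constructor <;> linarith [err2.1, err2.2]
  -- determinant
  set D := Dk k n n' with hD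
  have hDval : D = n i0 * n' i1 - n i1 * n' i0 := rfl
  have hDabs : s ≤ |D| := by
    have : |s| ≤ |D| := sq_le_sq.mp h3
    rwa [abs_of_pos hs] at this
  have hc0 : ∀ (u : F3), u ⬝ᵥ u = 1 → ∀ j, |u j| ≤ 1 := fun u hu j => coord_le_one hu j
  have r0 : d0 * D = A * n' i1 - B * n i1 := by
    rw [hDval, hA, hB]; ring
  have r1 : d1 * D = -(A * n' i0) + B * n i0 := by
    rw [hDval, hA, hB]; ring
  have ha0 : 0 ≤ a := by
    have := h1 x hxK
    simpa using this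
  have hE0 : 0 ≤ a + 2 * h * T := by positivity
  have b0 : |d0| * |D| ≤ 2 * (a + 2 * h * T) := by
    rw [← abs_mul, r0]
    calc |A * n' i1 - B * n i1| ≤ |A * n' i1| + |B * n i1| := abs_sub _ _
      _ = |A| * |n' i1| + |B| * |n i1| := by rw [abs_mul, abs_mul]
      _ ≤ (a + 2 * h * T) * 1 + (a + 2 * h * T) * 1 :=
          add_le_add (mul_le_mul hAabs (hc0 n' hn' _) (abs_nonneg _) hE0)
            (mul_le_mul hBabs (hc0 n hn _) (abs_nonneg _) hE0)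
      _ = 2 * (a + 2 * h * T) := by ring
  have b1 : |d1| * |D| ≤ 2 * (a + 2 * h * T) := by
    rw [← abs_mul, r1]
    calc |-(A * n' i0) + B * n i0| ≤ |-(A * n' i0)| + |B * n i0| := abs_add_le _ _
      _ = |A| * |n' i0| + |B| * |n i0| := by rw [abs_neg, abs_mul, abs_mul]
      _ ≤ (a + 2 * h * T) * 1 + (a + 2 * h * T) * 1 :=
          add_le_add (mul_le_mul hAabs (hc0 n' hn' _) (abs_nonneg _) hE0)
            (mul_le_mul hBabs (hc0 n hn _) (abs_nonneg _) hE0)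
      _ = 2 * (a + 2 * h * T) := by ring
  have b2 : T * s ≤ T * |D| := by gcongr
  have b3 : T * |D| ≤ 4 * a + 8 * h * T := by
    have h9 : T * |D| = |d0| * |D| + |d1| * |D| := by rw [hT]; ring
    rw [h9]; linarith
  have b4 : T * s / 2 ≤ 4 * a := by
    have h8 : 8 * h * T ≤ s / 2 * T := mul_le_mul_of_nonneg_right hh hT0
    have h9 : s / 2 * T = T * s / 2 := by ring
    linarith
  rw [le_div_iff₀ hs]
  linarith

end Vale.Agent.Lib.P243w
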