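import Mathlib
import Vale.Agent.Lib.P243w.WetSet

open MeasureTheory Set
open scoped Matrix

namespace Vale.Agent.Lib.P243w

theorem volume_le_of_slices {S : Set F3} (hS : MeasurableSet S) (k : Fin 3) {ρ : ℝ} (hρ : 0 ≤ ρ)
    (hbox : ∀ x ∈ S, |x k| ≤ 1)
    (hsl : ∀ x ∈ S, ∀ y ∈ S, x k = y k → ∀ j, |y (k.succAbove j) - x (k.succAbove j)| ≤ ρ) :
    volume S ≤ ENNReal.ofReal (2 * (2 * ρ) ^ 2) := by
  let e := MeasurableEquiv.piFinSuccAbove (fun _ : Fin 3 => ℝ) k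
  have hmp : MeasurePreserving e volume volume := volume_preserving_piFinSuccAbove (fun _ => ℝ) k
  have hsymm := hmp.symm
  set T : Set (ℝ × (Fin 2 → ℝ)) := e.symm ⁻¹' S with hT
  have hTm : MeasurableSet T := e.symm.measurable hS
  have hvol : volume S = volume T := (hsymm.measure_preimage hS.nullMeasurableSet).symm
  rw [hvol, Measure.volume_eq_prod, Measure.prod_apply hTm]
  have hval : ∀ (t : ℝ) (w : Fin 2 → ℝ), (e.symm (t, w)) k = t := by
    intro t w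
    change Fin.insertNth (α := fun _ => ℝ) k t w k = t
    simp
  have hval2 : ∀ (t : ℝ) (w : Fin 2 → ℝ) (j : Fin 2), (e.symm (t, w)) (k.succAbove j) = w j := by
    intro t w j
    change Fin.insertNth (α := fun _ => ℝ) k t w (k.succAbove j) = w j
    simp
  set C : ENNReal := ENNReal.ofReal ((2 * ρ) ^ 2) with hC
  have hbound : ∀ t : ℝ, volume (Prod.mk t ⁻¹' T) ≤ (Icc (-1 : ℝ) 1).indicator (fun _ => C) t := by
    intro t
    by_cases hne : (Prod.mk t ⁻¹' T).Nonempty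
    · obtain ⟨w0, hw0⟩ := hne
      have htmem : t ∈ Icc (-1 : ℝ) 1 := by
        have := hbox _ hw0
        rw [hval] at this
        exact abs_le.mp this
      rw [indicator_of_mem htmem]
      have hsub : Prod.mk t ⁻¹' T ⊆ Icc (fun j => w0 j - ρ) (fun j => w0 j + ρ) := by
        intro w hw
        have h := hsl _ hw0 _ hw (by rw [hval, hval])
        constructor
        · intro j
          have := h j
          rw [hval2, hval2, abs_le] at this
          simp only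
          linarith [this.1]
        · intro j
          have := h j
          rw [hval2, hval2, abs_le] at this
          simp only
          linarith [this.2]
      refine le_trans (measure_mono hsub) ?_
      rw [Real.volume_Icc_pi, Fin.prod_univ_two, hC, ← ENNReal.ofReal_mul (by linarith)]
      apply ENNReal.ofReal_le_ofReal
      nlinarith
    · rw [not_nonempty_iff_eq_empty] at hne
      rw [hne]
      simp
  calc ∫⁻ t, volume (Prod.mk t ⁻¹' T) ≤ ∫⁻ t, (Icc (-1 : ℝ) 1).indicator (fun _ => C) t :=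
        lintegral_mono hbound
    _ = C * volume (Icc (-1 : ℝ) 1) := lintegral_indicator_const measurableSet_Icc C
    _ = ENNReal.ofReal (2 * (2 * ρ) ^ 2) := by
        rw [Real.volume_Icc, hC, ← ENNReal.ofReal_mul (by positivity)]
        congr 1
        ring

theorem volume_piece_le {K : Set F3} (hKc : IsCompact K)
    (hbox : ∀ x ∈ K, ∀ j, |x j| ≤ 1) {a s h : ℝ} (ha : 0 ≤ a) (hs : 0 < s) (hh : 8 * h ≤ s / 2)
    (hh0 : 0 < h) (k : Fin 3) (p p' : Fin 2 → ℤ) :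
    volume (piece K a s h k p p') ≤ ENNReal.ofReal (2 * (2 * (8 * a / s)) ^ 2) := by
  refine volume_le_of_slices (piece_compact hKc a s h k p p').measurableSet k (by positivity)
    (fun x hx => hbox x hx.1 k) ?_
  intro x hx y hy hk j
  have := piece_slice hs hh hh0 hx hy hk
  fin_cases j
  · have h2 := abs_nonneg (y (k.succAbove 1) - x (k.succAbove 1))
    simp only [Fin.zero_eta]
    linarith
  · have h2 := abs_nonneg (y (k.succAbove 0) - x (k.succAbove 0))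
    simp only [Fin.mk_one]
    linarith

/-- vertices of the standard simplex and box: two points with large width in direction `n`. -/
theorem exists_width {K : Set F3} (h0 : (0 : F3) ∈ K) (he : ∀ i, (Pi.single i 1 : F3) ∈ K)
    {n : F3} (hn : n ⬝ᵥ n = 1) :
    ∃ z ∈ K, ∃ z' ∈ K, 1 / 3 ≤ ((z - z') ⬝ᵥ n) ^ 2 ∧ 0 ≤ (z - z') ⬝ᵥ n := by
  have hsq : ∃ i, 1 / 3 ≤ (n i) ^ 2 := by
    by_contra hcon
    push Not at hcon
    rw [dot_eq] at hn
    nlinarith [hcon 0, hcon 1, hcon 2]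
  obtain ⟨i, hi⟩ := hsq
  have hdot : (Pi.single i 1 : F3) ⬝ᵥ n = n i := by
    simp [dotProduct, Pi.single_apply]
  rcases le_total 0 (n i) with hpos | hneg
  · refine ⟨_, he i, 0, h0, ?_, ?_⟩
    · simpa [hdot] using hi
    · simpa [hdot] using hpos
  · refine ⟨0, h0, _, he i, ?_, ?_⟩
    · have : ((0 : F3) - Pi.single i 1) ⬝ᵥ n = - n i := by
        rw [dot_sub_left, hdot]; simp
      rw [this]; nlinarith
    · have : ((0 : F3) - Pi.single i 1) ⬝ᵥ n = - n i := by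
        rw [dot_sub_left, hdot]; simp
      rw [this]; linarith

theorem diff_sq_le {K : Set F3} (hbox : ∀ x ∈ K, ∀ j, |x j| ≤ 1) {x y : F3} (hx : x ∈ K)
    (hy : y ∈ K) : (x - y) ⬝ᵥ (x - y) ≤ 12 := by
  have h1 : ∀ j, (x j - y j) ^ 2 ≤ 4 := by
    intro j
    have hxj := abs_le.mp (hbox x hx j)
    have hyj := abs_le.mp (hbox y hy j)
    nlinarith [hxj.1, hxj.2, hyj.1, hyj.2]
  rw [dot_eq]
  simp only [Pi.sub_apply]
  nlinarith [h1 0, h1 1, h1 2]

/-- two normals with small depth at a point of `K` are not nearly antipodal -/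
theorem not_antipodal {K : Set F3} (h0 : (0 : F3) ∈ K) (he : ∀ i, (Pi.single i 1 : F3) ∈ K)
    (hbox : ∀ x ∈ K, ∀ j, |x j| ≤ 1) {a : ℝ} (ha : a ≤ 1 / 100) {x n n' : F3} (hx : x ∈ K)
    (hn : n ⬝ᵥ n = 1) (hn' : n' ⬝ᵥ n' = 1) (h1 : ∀ z ∈ K, (z - x) ⬝ᵥ n ≤ a)
    (h2 : ∀ z ∈ K, (z - x) ⬝ᵥ n' ≤ a) : -(99 / 100) ≤ n ⬝ᵥ n' := by
  by_contra hcon
  push Not at hcon
  obtain ⟨z, hz, z', hz', hsq, hnn⟩ := exists_width h0 he hn
  set N : F3 := n + n' with hN
  have hNN : N ⬝ᵥ N = 2 + 2 * (n ⬝ᵥ n') := by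
    rw [hN]
    simp only [dot_eq] at *
    simp only [Pi.add_apply]
    nlinarith
  have hNNlt : N ⬝ᵥ N < 1 / 50 := by rw [hNN]; linarith
  have hNN0 : 0 ≤ N ⬝ᵥ N := by
    rw [dot_eq]; nlinarith [sq_nonneg (N 0), sq_nonneg (N 1), sq_nonneg (N 2)]
  have hcs := cs3 (z' - x) N
  have hd := diff_sq_le hbox hz' hx
  have hq : ((z' - x) ⬝ᵥ N) ^ 2 ≤ 12 * (1 / 50) := by
    calc ((z' - x) ⬝ᵥ N) ^ 2 ≤ ((z' - x) ⬝ᵥ (z' - x)) * (N ⬝ᵥ N) := hcs
      _ ≤ 12 * (1 / 50) := by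
        apply mul_le_mul hd hNNlt.le hNN0 (by norm_num)
  have hsplit : (z - z') ⬝ᵥ n = (z - x) ⬝ᵥ n + (z' - x) ⬝ᵥ n' - (z' - x) ⬝ᵥ N := by
    rw [hN]
    simp only [dot_eq, Pi.sub_apply, Pi.add_apply]
    ring
  have hle : (z - z') ⬝ᵥ n ≤ 2 * a - (z' - x) ⬝ᵥ N := by
    have := h1 z hz
    have := h2 z' hz'
    linarith
  set A := (z - z') ⬝ᵥ n with hA
  set B := (z' - x) ⬝ᵥ N with hB
  -- A >= 0.57, |B| <= 0.49
  have hA57 : 57 / 100 ≤ A := by
    by_contra hlt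
    push Not at hlt
    nlinarith
  have hB49 : -B ≤ 49 / 100 := by
    by_contra hlt
    push Not at hlt
    nlinarith
  linarith

/-- index set for the pieces -/
noncomputable def Idx (M : ℕ) : Finset (Fin 3 × (Fin 2 → ℤ) × (Fin 2 → ℤ)) :=
  (Finset.univ : Finset (Fin 3)) ×ˢ
    ((Fintype.piFinset fun _ : Fin 2 => Finset.Icc (-(M : ℤ)) M) ×ˢ
      (Fintype.piFinset fun _ : Fin 2 => Finset.Icc (-(M : ℤ)) M))

theorem card_Idx (M : ℕ) : (Idx M).card = 3 * (2 * M + 1) ^ 4 := by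
  have h : (Finset.Icc (-(M : ℤ)) M).card = 2 * M + 1 := by
    rw [Int.card_Icc]; omega
  simp only [Idx, Finset.card_product, Fintype.card_piFinset, Finset.prod_const, Finset.card_univ,
    Fintype.card_fin, h]
  ring

theorem patch_exists {h : ℝ} (hh0 : 0 < h) {M : ℕ} (hM : 1 / h + 1 ≤ M) {u : ℝ} (hu : |u| ≤ 1) :
    ∃ q : ℤ, q ∈ Finset.Icc (-(M : ℤ)) M ∧ |u - h * q| ≤ h := by
  refine ⟨round (u / h), ?_, ?_⟩
  · have hr := abs_sub_round (u / h)
    have hdiv : |u / h| ≤ 1 / h := by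
      rw [abs_div, abs_of_pos hh0]
      gcongr
    have hbd : |((round (u / h) : ℤ) : ℝ)| ≤ M := by
      have : |((round (u / h) : ℤ) : ℝ)| ≤ |u / h| + |u / h - round (u / h)| := by
        have h3 := abs_sub_abs_le_abs_sub (((round (u / h) : ℤ) : ℝ)) (u / h)
        rw [abs_sub_comm (((round (u / h) : ℤ) : ℝ)) (u / h)] at h3
        linarith
      linarith
    rw [abs_le] at hbd
    rw [Finset.mem_Icc]
    constructor
    · have := hbd.1
      exact_mod_cast this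
    · have := hbd.2
      exact_mod_cast this
  · have hr := abs_sub_round (u / h)
    have : u - h * (round (u / h) : ℤ) = h * (u / h - round (u / h)) := by
      field_simp
    rw [this, abs_mul, abs_of_pos hh0]
    nlinarith

theorem W_subset_pieces {K : Set F3} (h0 : (0 : F3) ∈ K) (he : ∀ i, (Pi.single i 1 : F3) ∈ K)
    (hbox : ∀ x ∈ K, ∀ j, |x j| ≤ 1) {a c0 s h : ℝ} (ha : a ≤ 1 / 100) (hc0 : 99 / 100 ≤ c0)
    (hs : 3 * s ^ 2 ≤ 1 - c0 ^ 2) (hh0 : 0 < h) {M : ℕ} (hM : 1 / h + 1 ≤ M) :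
    W K a c0 ⊆ ⋃ q ∈ Idx M, piece K a s h q.1 q.2.1 q.2.2 := by
  rintro x ⟨hx, n, n', hn, hn', hc, h1, h2⟩
  have hanti := not_antipodal h0 he hbox ha hx hn hn' h1 h2
  have hsq : (n ⬝ᵥ n') ^ 2 ≤ c0 ^ 2 := by
    apply sq_le_sq'
    · linarith
    · exact hc
  have hsum := sum_Dk_sq n n'
  rw [hn, hn'] at hsum
  have hk : ∃ k : Fin 3, s ^ 2 ≤ (Dk k n n') ^ 2 := by
    by_contra hcon
    push Not at hcon
    have h3 := hcon 0
    have h4 := hcon 1
    have h5 := hcon 2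
    nlinarith
  obtain ⟨k, hk⟩ := hk
  have hp : ∀ (v : F3), v ⬝ᵥ v = 1 → ∃ q : Fin 2 → ℤ,
      q ∈ (Fintype.piFinset fun _ : Fin 2 => Finset.Icc (-(M : ℤ)) M) ∧
        ∀ j, |v (k.succAbove j) - h * q j| ≤ h := by
    intro v hv
    have := fun j : Fin 2 => patch_exists hh0 hM (coord_le_one hv (k.succAbove j))
    choose q hq1 hq2 using this
    exact ⟨q, by simpa [Fintype.mem_piFinset] using hq1, hq2⟩
  obtain ⟨p, hp1, hp2⟩ := hp n hn
  obtain ⟨p', hp1', hp2'⟩ := hp n' hn'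
  simp only [mem_iUnion]
  refine ⟨(k, p, p'), ?_, ?_⟩
  · simp [Idx, Finset.mem_product, hp1, hp1']
  · exact ⟨hx, n, n', hn, hn', h1, h2, hk, hp2, hp2'⟩

theorem volume_W_le {K : Set F3} (hKc : IsCompact K) (h0 : (0 : F3) ∈ K)
    (he : ∀ i, (Pi.single i 1 : F3) ∈ K) (hbox : ∀ x ∈ K, ∀ j, |x j| ≤ 1) {a c0 s h : ℝ}
    (ha0 : 0 ≤ a) (ha : a ≤ 1 / 100) (hc0 : 99 / 100 ≤ c0)
    (hs0 : 0 < s) (hs : 3 * s ^ 2 ≤ 1 - c0 ^ 2) (hh0 : 0 < h) (hh : 8 * h ≤ s / 2)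
    {M : ℕ} (hM : 1 / h + 1 ≤ M) :
    volume (W K a c0) ≤ ENNReal.ofReal (3 * (2 * M + 1) ^ 4 * (2 * (2 * (8 * a / s)) ^ 2)) := by
  calc volume (W K a c0)
      ≤ volume (⋃ q ∈ Idx M, piece K a s h q.1 q.2.1 q.2.2) :=
        measure_mono (W_subset_pieces h0 he hbox ha hc0 hs hh0 hM)
    _ ≤ ∑ q ∈ Idx M, volume (piece K a s h q.1 q.2.1 q.2.2) := measure_biUnion_finset_le _ _
    _ ≤ ∑ _q ∈ Idx M, ENNReal.ofReal (2 * (2 * (8 * a / s)) ^ 2) :=
        Finset.sum_le_sum fun q _ => volume_piece_le hKc hbox ha0 hs0 hh hh0 _ _ _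
    _ = ENNReal.ofReal (3 * (2 * M + 1) ^ 4 * (2 * (2 * (8 * a / s)) ^ 2)) := by
        have hc : (3 * (2 * (M : ℝ) + 1) ^ 4) = ((3 * (2 * M + 1) ^ 4 : ℕ) : ℝ) := by
          push_cast
          ring
        rw [Finset.sum_const, card_Idx, nsmul_eq_mul, hc,
          ENNReal.ofReal_mul (p := ((3 * (2 * M + 1) ^ 4 : ℕ) : ℝ)) (by positivity),
          ENNReal.ofReal_natCast]

end Vale.Agent.Lib.P243w
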