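import Mathlib
import Vale.Agent.Lib.P243w.WetVolume

open MeasureTheory Set
open scoped Matrix

namespace Vale.Agent.Lib.P243w

theorem dot_self_nonneg (x : F3) : 0 ≤ x ⬝ᵥ x := by
  rw [dot_eq]; nlinarith [sq_nonneg (x 0), sq_nonneg (x 1), sq_nonneg (x 2)]

theorem dot_self_pos {x : F3} (hx : x ≠ 0) : 0 < x ⬝ᵥ x := by
  rcases (dot_self_nonneg x).eq_or_lt with h | h
  · exfalso
    apply hx
    have h0 : x ⬝ᵥ x = 0 := h.symm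
    rw [dot_eq] at h0
    ext j
    fin_cases j <;> simp <;> nlinarith [sq_nonneg (x 0), sq_nonneg (x 1), sq_nonneg (x 2)]
  · exact h

/-- continuous linear functionals on `F3` are dot products -/
theorem functional_eq_dot (g : F3 →L[ℝ] ℝ) : ∃ m : F3, ∀ y : F3, g y = y ⬝ᵥ m := by
  refine ⟨fun i => g (Pi.single i 1), fun y => ?_⟩
  have : y = ∑ i, y i • (Pi.single i 1 : F3) := by
    ext j
    simp [Pi.single_apply]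
  conv_lhs => rw [this]
  simp [map_sum, dotProduct]

/-- normalising a nonzero vector -/
theorem exists_unit_smul {m : F3} (hm : m ≠ 0) :
    ∃ c : ℝ, 0 < c ∧ (c • m) ⬝ᵥ (c • m) = 1 := by
  have hpos := dot_self_pos hm
  refine ⟨1 / Real.sqrt (m ⬝ᵥ m), by positivity, ?_⟩
  rw [smul_dotProduct, dotProduct_smul, smul_eq_mul, smul_eq_mul]
  have hs : Real.sqrt (m ⬝ᵥ m) ^ 2 = m ⬝ᵥ m := Real.sq_sqrt hpos.le
  have hs0 : Real.sqrt (m ⬝ᵥ m) ≠ 0 := (Real.sqrt_pos.mpr hpos).ne'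
  field_simp
  nlinarith [hs]

/-- the half-ball lemma -/
theorem half_ball {K : Set F3} (hKc : IsClosed K) (hKv : Convex ℝ K) {a c0 θ : ℝ}
    (ha : 0 ≤ a) (hc0 : 2 * (1 - c0) ≤ θ ^ 2) {x n1 v : F3} (hx : x ∈ K)
    (hxW : x ∉ W K a c0) (hn1 : n1 ⬝ᵥ n1 = 1) (hd : ∀ z ∈ K, (z - x) ⬝ᵥ n1 ≤ a)
    (hv1 : v ⬝ᵥ v ≤ a ^ 2) (hv2 : v ⬝ᵥ n1 ≤ 0) (hv3 : θ ^ 2 * (v ⬝ᵥ v) ≤ (v ⬝ᵥ n1) ^ 2) :
    x + v ∈ K := by
  by_contra hnot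
  obtain ⟨f, u, hfu, hf⟩ := geometric_hahn_banach_point_closed hKv hKc hnot
  obtain ⟨m0, hm0⟩ := functional_eq_dot f
  -- the normal is minus m0
  set m : F3 := -m0 with hm
  have hmval : ∀ y : F3, y ⬝ᵥ m = - f y := by
    intro y
    rw [hm, dotProduct_neg, hm0]
  have hstrict : ∀ z ∈ K, (z - x) ⬝ᵥ m < v ⬝ᵥ m := by
    intro z hz
    have h1 := hf z hz
    have h2 : (z - x) ⬝ᵥ m = z ⬝ᵥ m - x ⬝ᵥ m := dot_sub_left _ _ _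
    have h3 : (x + v) ⬝ᵥ m = x ⬝ᵥ m + v ⬝ᵥ m := add_dotProduct _ _ _
    rw [hmval] at h3
    rw [h2, hmval z]
    rw [hmval x] at h3 ⊢
    linarith
  have hvm : 0 < v ⬝ᵥ m := by
    have := hstrict x hx
    simpa using this
  have hm0' : m ≠ 0 := by
    intro h
    rw [h] at hvm
    simp at hvm
  obtain ⟨c, hc, hcn⟩ := exists_unit_smul hm0'
  set n : F3 := c • m with hn
  have hvn : 0 < v ⬝ᵥ n := by
    rw [hn, dotProduct_smul, smul_eq_mul]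
    positivity
  have hzn : ∀ z ∈ K, (z - x) ⬝ᵥ n < v ⬝ᵥ n := by
    intro z hz
    rw [hn, dotProduct_smul, dotProduct_smul, smul_eq_mul, smul_eq_mul]
    exact mul_lt_mul_of_pos_left (hstrict z hz) hc
  -- v.n <= a
  have hcsv := cs3 v n
  rw [hcn, mul_one] at hcsv
  have hvna : v ⬝ᵥ n ≤ a := by
    have : (v ⬝ᵥ n) ^ 2 ≤ a ^ 2 := le_trans hcsv hv1
    exact abs_le_of_sq_le_sq' this ha |>.2
  have hdn : ∀ z ∈ K, (z - x) ⬝ᵥ n ≤ a := fun z hz => le_trans (hzn z hz).le hvna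
  -- x not in W forces n.n1 > c0
  have hgt : c0 < n ⬝ᵥ n1 := by
    by_contra hle
    push Not at hle
    exact hxW ⟨hx, n, n1, hcn, hn1, hle, hdn, hd⟩
  -- |n - n1|^2 < theta^2
  have hdiff : (n - n1) ⬝ᵥ (n - n1) < θ ^ 2 := by
    have : (n - n1) ⬝ᵥ (n - n1) = n ⬝ᵥ n - 2 * (n ⬝ᵥ n1) + n1 ⬝ᵥ n1 := by
      simp only [sub_dotProduct, dotProduct_sub, dotProduct_comm n1 n]
      ring
    rw [this, hcn, hn1]
    linarith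
  have hvpos : 0 < v ⬝ᵥ v := by
    have h1 : 0 < (v ⬝ᵥ n) ^ 2 := by positivity
    linarith
  have hcs2 := cs3 v (n - n1)
  have hlt : (v ⬝ᵥ (n - n1)) ^ 2 < (v ⬝ᵥ n1) ^ 2 := by
    calc (v ⬝ᵥ (n - n1)) ^ 2 ≤ (v ⬝ᵥ v) * ((n - n1) ⬝ᵥ (n - n1)) := hcs2
      _ < (v ⬝ᵥ v) * θ ^ 2 := mul_lt_mul_of_pos_left hdiff hvpos
      _ = θ ^ 2 * (v ⬝ᵥ v) := mul_comm _ _
      _ ≤ (v ⬝ᵥ n1) ^ 2 := hv3
  have hsplit : v ⬝ᵥ n = v ⬝ᵥ n1 + v ⬝ᵥ (n - n1) := by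
    rw [dotProduct_sub]; ring
  have habs : |v ⬝ᵥ (n - n1)| < |v ⬝ᵥ n1| := sq_lt_sq.mp hlt
  rw [abs_of_nonpos hv2] at habs
  have := (abs_lt.mp habs).2
  linarith

/-- unit vector orthogonal to two given vectors -/
theorem exists_orth (u n : F3) : ∃ τ : F3, τ ⬝ᵥ τ = 1 ∧ τ ⬝ᵥ u = 0 ∧ τ ⬝ᵥ n = 0 := by
  let f : F3 →ₗ[ℝ] (Fin 2 → ℝ) :=
    { toFun := fun y => ![y ⬝ᵥ u, y ⬝ᵥ n]
      map_add' := by
        intro x y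
        ext j
        fin_cases j <;> simp [add_dotProduct]
      map_smul' := by
        intro c x
        ext j
        fin_cases j <;> simp [smul_dotProduct] }
  have hker : LinearMap.ker f ≠ ⊥ := by
    apply LinearMap.ker_ne_bot_of_finrank_lt
    simp
  obtain ⟨y, hy, hy0⟩ := (Submodule.ne_bot_iff _).mp hker
  have hy1 : y ⬝ᵥ u = 0 := by
    have := congrFun (LinearMap.mem_ker.mp hy) 0
    simpa [f] using this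
  have hy2 : y ⬝ᵥ n = 0 := by
    have := congrFun (LinearMap.mem_ker.mp hy) 1
    simpa [f] using this
  obtain ⟨c, _, hcn⟩ := exists_unit_smul hy0
  exact ⟨c • y, hcn, by rw [smul_dotProduct, hy1]; simp, by rw [smul_dotProduct, hy2]; simp⟩

/-- perpendicular part squared of a vector relative to `u` -/
def perpSq (u v : F3) : ℝ := v ⬝ᵥ v - (v ⬝ᵥ u) ^ 2

theorem dot_sub_smul_self (x u : F3) (t : ℝ) :
    (x - t • u) ⬝ᵥ (x - t • u) = x ⬝ᵥ x - 2 * t * (x ⬝ᵥ u) + t ^ 2 * (u ⬝ᵥ u) := by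
  simp only [dot_eq, Pi.sub_apply, Pi.smul_apply, smul_eq_mul]
  ring

theorem dot_add_smul_self (x u : F3) (t : ℝ) :
    (x + t • u) ⬝ᵥ (x + t • u) = x ⬝ᵥ x + 2 * t * (x ⬝ᵥ u) + t ^ 2 * (u ⬝ᵥ u) := by
  simp only [dot_eq, Pi.add_apply, Pi.smul_apply, smul_eq_mul]
  ring

theorem dot_add_self (x y : F3) : (x + y) ⬝ᵥ (x + y) = x ⬝ᵥ x + 2 * (x ⬝ᵥ y) + y ⬝ᵥ y := by
  simp only [dot_eq, Pi.add_apply]
  ring

theorem dot_sub_self (x y : F3) : (x - y) ⬝ᵥ (x - y) = x ⬝ᵥ x - 2 * (x ⬝ᵥ y) + y ⬝ᵥ y := by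
  simp only [dot_eq, Pi.sub_apply]
  ring

theorem dot_sub_smul_add_smul (x y u : F3) (t t' : ℝ) :
    (x - t • u) ⬝ᵥ (y + t' • u)
      = x ⬝ᵥ y + t' * (x ⬝ᵥ u) - t * (y ⬝ᵥ u) - t * t' * (u ⬝ᵥ u) := by
  simp only [dot_eq, Pi.sub_apply, Pi.add_apply, Pi.smul_apply, smul_eq_mul]
  ring

/-- the algebraic lemma: the sum of the two normals has a definite horizontal part -/
theorem horizontal_of_sum {u n1 n2 : F3} (hu : u ⬝ᵥ u = 1) (hn1 : n1 ⬝ᵥ n1 = 1)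
    (hn2 : n2 ⬝ᵥ n2 = 1) (hs : 0 ≤ u ⬝ᵥ n1) (hs' : u ⬝ᵥ n2 ≤ 0) {c : ℝ} (hc0 : 0 ≤ c) (hc1 : c ≤ 1)
    (hN : c ^ 2 ≤ (n1 + n2) ⬝ᵥ (n1 + n2)) : c ^ 4 / 16 ≤ perpSq u (n1 + n2) := by
  obtain ⟨s, hsd⟩ : ∃ s, s = u ⬝ᵥ n1 := ⟨_, rfl⟩
  obtain ⟨s', hsd'⟩ : ∃ s', s' = -(u ⬝ᵥ n2) := ⟨_, rfl⟩
  obtain ⟨d, hd⟩ : ∃ d, d = n1 ⬝ᵥ n2 := ⟨_, rfl⟩
  have hs0 : 0 ≤ s := by rw [hsd]; exact hs
  have hs'0 : 0 ≤ s' := by rw [hsd']; linarith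
  have hNu : (n1 + n2) ⬝ᵥ u = s - s' := by
    rw [add_dotProduct, dotProduct_comm n1, dotProduct_comm n2, hsd', hsd]
    ring
  have hNN : (n1 + n2) ⬝ᵥ (n1 + n2) = 2 + 2 * d := by
    rw [dot_add_self, hn1, hn2, hd]
    ring
  have hGu : (n2 - n1) ⬝ᵥ u = -(s + s') := by
    rw [sub_dotProduct, dotProduct_comm n2, dotProduct_comm n1, hsd', hsd]
    ring
  have hG2 : (n2 - n1) ⬝ᵥ (n2 - n1) = 2 - 2 * d := by
    rw [dot_sub_self, hn1, hn2, dotProduct_comm n2 n1, hd]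
    ring
  have hNG : (n1 + n2) ⬝ᵥ (n2 - n1) = 0 := by
    simp only [dot_eq, Pi.add_apply, Pi.sub_apply] at hn1 hn2 ⊢
    linarith
  obtain ⟨H, hH⟩ : ∃ H, H = perpSq u (n1 + n2) := ⟨_, rfl⟩
  have hHval : H = 2 + 2 * d - (s - s') ^ 2 := by rw [hH, perpSq, hNu, hNN]
  have haa : ((n1 + n2) - (s - s') • u) ⬝ᵥ ((n1 + n2) - (s - s') • u) = H := by
    rw [dot_sub_smul_self, hNu, hu, hHval, hNN]
    ring
  have hbb : ((n2 - n1) + (s + s') • u) ⬝ᵥ ((n2 - n1) + (s + s') • u) = 2 - 2 * d - (s + s') ^ 2 := by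
    rw [dot_add_smul_self, hGu, hu, hG2]
    ring
  have hab : ((n1 + n2) - (s - s') • u) ⬝ᵥ ((n2 - n1) + (s + s') • u) = (s - s') * (s + s') := by
    rw [dot_sub_smul_add_smul, hNG, hNu, hGu, hu]
    ring
  have hcs := cs3 ((n1 + n2) - (s - s') • u) ((n2 - n1) + (s + s') • u)
  rw [haa, hbb, hab] at hcs
  have hH0 : 0 ≤ H := by rw [← haa]; exact dot_self_nonneg _
  have hNN0 : 0 ≤ 2 + 2 * d := by rw [← hNN]; exact dot_self_nonneg _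
  have hbb4 : 2 - 2 * d - (s + s') ^ 2 ≤ 4 := by
    nlinarith [sq_nonneg (s + s')]
  have hcs4 : ((s - s') * (s + s')) ^ 2 ≤ H * 4 :=
    le_trans hcs (mul_le_mul_of_nonneg_left hbb4 hH0)
  have hc2 : c ^ 2 ≤ 2 + 2 * d := by rw [← hNN]; exact hN
  have hgoal : c ^ 4 / 16 ≤ H := by
    by_cases hcase : (s - s') ^ 2 ≤ (2 + 2 * d) / 2
    · have h2 : c ^ 2 / 2 ≤ H := by rw [hHval]; linarith
      have h3 : c ^ 4 ≤ c ^ 2 := by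
        have : c ^ 2 ≤ 1 := by nlinarith
        nlinarith [sq_nonneg c]
      nlinarith
    · push Not at hcase
      have hc2' : c ^ 2 / 2 < (s - s') ^ 2 := by linarith
      have hge : (s - s') ^ 2 ≤ (s + s') ^ 2 := by nlinarith
      have h4 : ((s - s') ^ 2) ^ 2 ≤ ((s - s') * (s + s')) ^ 2 := by
        have : ((s - s') * (s + s')) ^ 2 = (s - s') ^ 2 * (s + s') ^ 2 := by ring
        rw [this, sq ((s - s') ^ 2)]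
        exact mul_le_mul_of_nonneg_left hge (sq_nonneg _)
      have h5 : (c ^ 2 / 2) ^ 2 ≤ ((s - s') ^ 2) ^ 2 := by
        apply pow_le_pow_left₀ (by positivity) hc2'.le
      have h6 : (c ^ 2 / 2) ^ 2 = c ^ 4 / 4 := by ring
      rw [h6] at h5
      linarith
  rw [← hH]
  exact hgoal

/-- supporting hyperplane at a non-interior point -/
theorem supporting_normal {K : Set F3} (hKv : Convex ℝ K) (hint : (interior K).Nonempty) {p : F3}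
    (hp : p ∉ interior K) : ∃ n : F3, n ⬝ᵥ n = 1 ∧ ∀ z ∈ K, (z - p) ⬝ᵥ n ≤ 0 := by
  obtain ⟨f, hf⟩ := geometric_hahn_banach_open_point hKv.interior isOpen_interior hp
  obtain ⟨m, hm⟩ := functional_eq_dot f
  have hm0 : m ≠ 0 := by
    intro h
    obtain ⟨q, hq⟩ := hint
    have := hf q hq
    rw [hm, hm, h] at this
    simp at this
  obtain ⟨c, hc, hcn⟩ := exists_unit_smul hm0
  refine ⟨c • m, hcn, fun z hz => ?_⟩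
  have hclosed : IsClosed {w : F3 | f w ≤ f p} := isClosed_le f.continuous continuous_const
  have hsub : closure (interior K) ⊆ {w : F3 | f w ≤ f p} :=
    closure_minimal (fun w hw => (hf w hw).le) hclosed
  have hzc : z ∈ closure (interior K) := by
    rw [hKv.closure_interior_eq_closure_of_nonempty_interior hint]
    exact subset_closure hz
  have hz' : f z ≤ f p := hsub hzc
  rw [hm, hm] at hz'
  rw [dotProduct_smul, smul_eq_mul, dot_sub_left]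
  have : z ⬝ᵥ m - p ⬝ᵥ m ≤ 0 := by linarith
  exact mul_nonpos_of_nonneg_of_nonpos hc.le this

theorem perpSq_smul (u x : F3) (t : ℝ) : perpSq u (t • x) = t ^ 2 * perpSq u x := by
  simp only [perpSq, smul_dotProduct, dotProduct_smul, smul_eq_mul]
  ring

theorem perpSq_add_smul {u : F3} (hu : u ⬝ᵥ u = 1) (x : F3) (t : ℝ) :
    perpSq u (x + t • u) = perpSq u x := by
  simp only [perpSq]
  rw [dot_add_smul_self, add_dotProduct, smul_dotProduct, hu, smul_eq_mul]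
  ring

theorem perpSq_le (u x : F3) : perpSq u x ≤ x ⬝ᵥ x := by
  simp only [perpSq]
  nlinarith [sq_nonneg (x ⬝ᵥ u)]

theorem ge_of_third_sq {x : ℝ} (h : 1 / 3 ≤ x ^ 2) (h0 : 0 ≤ x) : 57 / 100 ≤ x := by
  by_contra hcon
  push Not at hcon
  nlinarith

/-- Case A of the tip lemma -/
theorem tip_caseA {K : Set F3} (hKc : IsClosed K) (hKv : Convex ℝ K)
    {a c0 θ c : ℝ} {u n1 n2 x1 x2 : F3} (ha : 0 < a) (hθ : 0 < θ) (hcθ : 2 * θ ≤ c) (hc1 : c ≤ 1)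
    (hc0 : 2 * (1 - c0) ≤ θ ^ 2) (hu : u ⬝ᵥ u = 1) (hn1 : n1 ⬝ᵥ n1 = 1) (hn2 : n2 ⬝ᵥ n2 = 1)
    (hs : 0 ≤ u ⬝ᵥ n1) (hs' : u ⬝ᵥ n2 ≤ 0) (hx1K : x1 ∈ K) (hx2K : x2 ∈ K)
    (hx1 : x1 ∉ W K a c0) (hx2 : x2 ∉ W K a c0)
    (hd1 : ∀ z ∈ K, (z - x1) ⬝ᵥ n1 ≤ a) (hd2 : ∀ z ∈ K, (z - x2) ⬝ᵥ n2 ≤ a)
    (hcase : c ^ 2 ≤ (n1 + n2) ⬝ᵥ (n1 + n2)) :
    ∃ v : F3, x1 + v ∈ K ∧ x2 + v ∈ K ∧ a ^ 2 * c ^ 4 / 64 ≤ perpSq u v := by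
  have hc00 : 0 < c := by linarith
  have hNN : (n1 + n2) ⬝ᵥ (n1 + n2) = 2 + 2 * (n1 ⬝ᵥ n2) := by
    rw [dot_add_self, hn1, hn2]
    ring
  have hd1' : n1 ⬝ᵥ n2 ≤ 1 := by
    have := cs3 n1 n2
    rw [hn1, hn2, one_mul] at this
    nlinarith
  have hNN4 : (n1 + n2) ⬝ᵥ (n1 + n2) ≤ 4 := by rw [hNN]; linarith
  have hθc : 4 * θ ^ 2 ≤ c ^ 2 := by nlinarith
  have hpos : 0 ≤ (n1 + n2) ⬝ᵥ (n1 + n2) := dot_self_nonneg _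
  have hvv : ((-(a / 2)) • (n1 + n2)) ⬝ᵥ ((-(a / 2)) • (n1 + n2))
      = a ^ 2 / 4 * ((n1 + n2) ⬝ᵥ (n1 + n2)) := by
    rw [smul_dotProduct, dotProduct_smul, smul_eq_mul, smul_eq_mul]
    ring
  have hvv1 : ((-(a / 2)) • (n1 + n2)) ⬝ᵥ ((-(a / 2)) • (n1 + n2)) ≤ a ^ 2 := by
    rw [hvv]
    nlinarith [sq_nonneg a]
  have hvn1 : ((-(a / 2)) • (n1 + n2)) ⬝ᵥ n1 = -(a / 2) * (1 + n1 ⬝ᵥ n2) := by
    rw [smul_dotProduct, smul_eq_mul, add_dotProduct, hn1, dotProduct_comm n2 n1]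
  have hvn2 : ((-(a / 2)) • (n1 + n2)) ⬝ᵥ n2 = -(a / 2) * (1 + n1 ⬝ᵥ n2) := by
    rw [smul_dotProduct, smul_eq_mul, add_dotProduct, hn2]
    ring
  have hd0 : 0 ≤ 1 + n1 ⬝ᵥ n2 := by nlinarith
  have hneg : -(a / 2) * (1 + n1 ⬝ᵥ n2) ≤ 0 := by nlinarith
  have hsq : θ ^ 2 * (((-(a / 2)) • (n1 + n2)) ⬝ᵥ ((-(a / 2)) • (n1 + n2)))
      ≤ (-(a / 2) * (1 + n1 ⬝ᵥ n2)) ^ 2 := by
    rw [hvv, hNN]
    have h3 : 2 * θ ^ 2 ≤ 1 + n1 ⬝ᵥ n2 := by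
      rw [hNN] at hcase
      nlinarith
    have h4 : (-(a / 2) * (1 + n1 ⬝ᵥ n2)) ^ 2 = a ^ 2 / 4 * ((1 + n1 ⬝ᵥ n2) * (1 + n1 ⬝ᵥ n2)) := by
      ring
    have h5 : θ ^ 2 * (a ^ 2 / 4 * (2 + 2 * n1 ⬝ᵥ n2))
        = a ^ 2 / 4 * ((2 * θ ^ 2) * (1 + n1 ⬝ᵥ n2)) := by ring
    rw [h4, h5]
    apply mul_le_mul_of_nonneg_left _ (by positivity)
    exact mul_le_mul_of_nonneg_right h3 hd0
  refine ⟨(-(a / 2)) • (n1 + n2), ?_, ?_, ?_⟩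
  · exact half_ball hKc hKv ha.le hc0 hx1K hx1 hn1 hd1 hvv1 (by rw [hvn1]; exact hneg)
      (by rw [hvn1]; exact hsq)
  · exact half_ball hKc hKv ha.le hc0 hx2K hx2 hn2 hd2 hvv1 (by rw [hvn2]; exact hneg)
      (by rw [hvn2]; exact hsq)
  · rw [perpSq_smul]
    have := horizontal_of_sum hu hn1 hn2 hs hs' hc00.le hc1 hcase
    have h3 : a ^ 2 * c ^ 4 / 64 = (-(a / 2)) ^ 2 * (c ^ 4 / 16) := by ring
    rw [h3]
    exact mul_le_mul_of_nonneg_left this (sq_nonneg _)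

/-- when the two normals are nearly antipodal the chord crosses the body -/
theorem chord_crosses {K : Set F3} (h0 : (0 : F3) ∈ K) (he : ∀ i, (Pi.single i 1 : F3) ∈ K)
    (hbox : ∀ x ∈ K, ∀ j, |x j| ≤ 1) {c L : ℝ} {u n1 n2 p1 p2 : F3}
    (hc00 : 0 < c) (hc : c ≤ 1 / 100)
    (hn1 : n1 ⬝ᵥ n1 = 1) (hn2 : n2 ⬝ᵥ n2 = 1) (hp : p1 - p2 = L • u)
    (hp1 : p1 ∈ K) (hp2 : p2 ∈ K)
    (hs1 : ∀ z ∈ K, (z - p1) ⬝ᵥ n1 ≤ 0) (hs2 : ∀ z ∈ K, (z - p2) ⬝ᵥ n2 ≤ 0)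
    (hcase : (n1 + n2) ⬝ᵥ (n1 + n2) < c ^ 2) :
    1 / 2 ≤ L * (u ⬝ᵥ n1) ∧ 1 / 2 ≤ L * (-(u ⬝ᵥ n2)) := by
  have hpos : 0 ≤ (n1 + n2) ⬝ᵥ (n1 + n2) := dot_self_nonneg _
  have hc2 : c ^ 2 ≤ 1 / 10000 := by nlinarith
  have hNbound : ∀ w ∈ K, ∀ w' ∈ K, |(w - w') ⬝ᵥ (n1 + n2)| ≤ 7 / 100 := by
    intro w hw w' hw'
    have h3 := cs3 (w - w') (n1 + n2)
    have h4 := diff_sq_le hbox hw hw'
    have h5 : ((w - w') ⬝ᵥ (n1 + n2)) ^ 2 ≤ (7 / 100) ^ 2 := by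
      have h6 : 0 ≤ (w - w') ⬝ᵥ (w - w') := dot_self_nonneg _
      calc ((w - w') ⬝ᵥ (n1 + n2)) ^ 2 ≤ ((w - w') ⬝ᵥ (w - w')) * ((n1 + n2) ⬝ᵥ (n1 + n2)) := h3
        _ ≤ 12 * (1 / 10000) := by
            apply mul_le_mul h4 (by linarith) hpos (by norm_num)
        _ ≤ (7 / 100) ^ 2 := by norm_num
    exact abs_le_of_sq_le_sq h5 (by norm_num)
  constructor
  · obtain ⟨z, hz, z', hz', hsq, hnn⟩ := exists_width h0 he hn1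
    have h3 : (z - z') ⬝ᵥ n1 = (z - p1) ⬝ᵥ n1 + L * (u ⬝ᵥ n1) - (z' - p2) ⬝ᵥ n1 := by
      have h4 : z - z' = (z - p1) + L • u - (z' - p2) := by rw [← hp]; abel
      rw [h4, sub_dotProduct, add_dotProduct, smul_dotProduct, smul_eq_mul]
    have h4 : (z' - p2) ⬝ᵥ (n1 + n2) = (z' - p2) ⬝ᵥ n1 + (z' - p2) ⬝ᵥ n2 := dotProduct_add _ _ _
    have h5 := hs1 z hz
    have h6 := hs2 z' hz'
    have h7 := (abs_le.mp (hNbound z' hz' p2 hp2)).1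
    have h8 := ge_of_third_sq hsq hnn
    linarith
  · obtain ⟨z, hz, z', hz', hsq, hnn⟩ := exists_width h0 he hn2
    have h3 : (z - z') ⬝ᵥ n2 = (z - p2) ⬝ᵥ n2 - L * (u ⬝ᵥ n2) - (z' - p1) ⬝ᵥ n2 := by
      have h4 : z - z' = (z - p2) - L • u - (z' - p1) := by rw [← hp]; abel
      rw [h4, sub_dotProduct, sub_dotProduct, smul_dotProduct, smul_eq_mul]
    have h4 : (z' - p1) ⬝ᵥ (n1 + n2) = (z' - p1) ⬝ᵥ n1 + (z' - p1) ⬝ᵥ n2 := dotProduct_add _ _ _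
    have h5 := hs2 z hz
    have h6 := hs1 z' hz'
    have h7 := (abs_le.mp (hNbound z' hz' p1 hp1)).1
    have h8 := ge_of_third_sq hsq hnn
    linarith

/-- Case B of the tip lemma: the vector arithmetic -/
theorem tip_caseB_arith {θ c L δ s s' t : ℝ} (hθ : 0 < θ) (hc00 : 0 < c) (hδ0 : 0 < δ)
    (hL : 0 < L) (hLm : 4 * (c + θ) * L ≤ 1) (hLs : 1 / 2 ≤ L * s) (hLs' : 1 / 2 ≤ L * s')
    (ht : t < c) :
    0 ≤ 4 * (c + θ) * δ * L ∧ 4 * (c + θ) * δ * L ≤ δ ∧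
    2 * θ * δ ≤ 4 * (c + θ) * δ * L * s ∧
    δ * t + 4 * (c + θ) * δ * L * (-s') ≤ -(2 * θ * δ) ∧
    (4 * (c + θ) * δ * L) ^ 2 ≤ δ ^ 2 ∧ θ ^ 2 * (2 * δ ^ 2) ≤ (2 * θ * δ) ^ 2 := by
  have h0 : 0 ≤ 4 * (c + θ) * δ * L := by positivity
  have h1 : 4 * (c + θ) * δ * L ≤ δ := by
    have : 4 * (c + θ) * δ * L = δ * (4 * (c + θ) * L) := by ring
    rw [this]
    exact mul_le_of_le_one_right hδ0.le hLm
  have hq : 0 ≤ 4 * (c + θ) * δ := by positivity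
  have h2 : 4 * (c + θ) * δ * (1 / 2) ≤ 4 * (c + θ) * δ * (L * s) :=
    mul_le_mul_of_nonneg_left hLs hq
  have h2' : 4 * (c + θ) * δ * (1 / 2) ≤ 4 * (c + θ) * δ * (L * s') :=
    mul_le_mul_of_nonneg_left hLs' hq
  have h3 : δ * t ≤ δ * c := mul_le_mul_of_nonneg_left ht.le hδ0.le
  have hcδ : 0 < c * δ := mul_pos hc00 hδ0
  refine ⟨h0, h1, ?_, ?_, pow_le_pow_left₀ h0 h1 2, ?_⟩
  · have e : 4 * (c + θ) * δ * L * s = 4 * (c + θ) * δ * (L * s) := by ring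
    rw [e]
    have e2 : 4 * (c + θ) * δ * (1 / 2) = 2 * (c * δ) + 2 * θ * δ := by ring
    rw [e2] at h2
    linarith
  · have e : 4 * (c + θ) * δ * L * (-s') = -(4 * (c + θ) * δ * (L * s')) := by ring
    rw [e]
    have e2 : 4 * (c + θ) * δ * (1 / 2) = 2 * (c * δ) + 2 * θ * δ := by ring
    rw [e2] at h2'
    have e3 : δ * c = c * δ := by ring
    rw [e3] at h3
    linarith
  · have e1 : θ ^ 2 * (2 * δ ^ 2) = 2 * (θ * δ) ^ 2 := by ring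
    have e2 : (2 * θ * δ) ^ 2 = 4 * (θ * δ) ^ 2 := by ring
    rw [e1, e2]
    linarith [sq_nonneg (θ * δ)]

/-- Case B of the tip lemma -/
theorem tip_caseB {K : Set F3} (hKc : IsClosed K) (hKv : Convex ℝ K)
    {a c0 θ c L : ℝ} {u n1 n2 x1 x2 : F3} (ha : 0 < a) (hθ : 0 < θ) (hc00 : 0 < c)
    (hc0 : 2 * (1 - c0) ≤ θ ^ 2) (hu : u ⬝ᵥ u = 1) (hn1 : n1 ⬝ᵥ n1 = 1) (hn2 : n2 ⬝ᵥ n2 = 1)
    (hL : 0 < L) (hLm : 4 * (c + θ) * L ≤ 1)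
    (hLs : 1 / 2 ≤ L * (u ⬝ᵥ n1)) (hLs' : 1 / 2 ≤ L * (-(u ⬝ᵥ n2)))
    (hx1K : x1 ∈ K) (hx2K : x2 ∈ K) (hx1 : x1 ∉ W K a c0) (hx2 : x2 ∉ W K a c0)
    (hd1 : ∀ z ∈ K, (z - x1) ⬝ᵥ n1 ≤ a) (hd2 : ∀ z ∈ K, (z - x2) ⬝ᵥ n2 ≤ a)
    (hcase : (n1 + n2) ⬝ᵥ (n1 + n2) < c ^ 2) :
    ∃ (v : F3) (m : ℝ), 0 ≤ m ∧ x1 + v ∈ K ∧ x2 + v + (2 * m) • u ∈ K ∧
      a ^ 2 / 4 ≤ perpSq u v ∧ 2 * m ≤ 4 * (c + θ) * a * L := by
  obtain ⟨τ, hττ, hτu, hτn⟩ := exists_orth u n1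
  have hτn2 : τ ⬝ᵥ n2 < c := by
    have h3 := cs3 τ (n1 + n2)
    rw [hττ, one_mul] at h3
    have h4 : (τ ⬝ᵥ (n1 + n2)) ^ 2 < c ^ 2 := lt_of_le_of_lt h3 hcase
    have h5 := lt_of_pow_lt_pow_left₀ 2 hc00.le h4
    have h6 : τ ⬝ᵥ (n1 + n2) = τ ⬝ᵥ n1 + τ ⬝ᵥ n2 := dotProduct_add _ _ _
    rw [hτn, zero_add] at h6
    rwa [h6] at h5
  obtain ⟨δ, hδ⟩ : ∃ δ, δ = a / 2 := ⟨_, rfl⟩
  have hδ0 : 0 < δ := by rw [hδ]; positivity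
  obtain ⟨hm0', hmδ', hneg1', hneg2', hmsq', hθ2⟩ :=
    tip_caseB_arith (s := u ⬝ᵥ n1) (s' := -(u ⬝ᵥ n2)) hθ hc00 hδ0 hL hLm hLs hLs' hτn2
  obtain ⟨m, hm⟩ : ∃ m, m = 4 * (c + θ) * δ * L := ⟨_, rfl⟩
  rw [← hm] at hm0' hmδ' hneg1' hneg2' hmsq'
  have hneg2'' : δ * (τ ⬝ᵥ n2) + m * (u ⬝ᵥ n2) ≤ -(2 * θ * δ) := by
    have e : m * (- -(u ⬝ᵥ n2)) = m * (u ⬝ᵥ n2) := by ring
    rwa [e] at hneg2'
  have hvv : (δ • τ + (-m) • u) ⬝ᵥ (δ • τ + (-m) • u) = δ ^ 2 + m ^ 2 := by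
    rw [dot_add_smul_self, smul_dotProduct, dotProduct_smul, smul_dotProduct, smul_eq_mul,
      smul_eq_mul, smul_eq_mul, hττ, hτu, hu]
    ring
  have hvv2 : (δ • τ + m • u) ⬝ᵥ (δ • τ + m • u) = δ ^ 2 + m ^ 2 := by
    rw [dot_add_smul_self, smul_dotProduct, dotProduct_smul, smul_dotProduct, smul_eq_mul,
      smul_eq_mul, smul_eq_mul, hττ, hτu, hu]
    ring
  have hle2 : δ ^ 2 + m ^ 2 ≤ 2 * δ ^ 2 := by linarith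
  have hlea : δ ^ 2 + m ^ 2 ≤ a ^ 2 := by
    have e : a ^ 2 = 4 * δ ^ 2 := by rw [hδ]; ring
    rw [e]
    linarith [sq_nonneg δ]
  have hvn1 : (δ • τ + (-m) • u) ⬝ᵥ n1 = -(m * (u ⬝ᵥ n1)) := by
    rw [add_dotProduct, smul_dotProduct, smul_dotProduct, hτn, smul_eq_mul, smul_eq_mul]
    ring
  have hvn2 : (δ • τ + m • u) ⬝ᵥ n2 = δ * (τ ⬝ᵥ n2) + m * (u ⬝ᵥ n2) := by
    rw [add_dotProduct, smul_dotProduct, smul_dotProduct, smul_eq_mul, smul_eq_mul]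
  have h2θδ : 0 ≤ 2 * θ * δ := by positivity
  have hx1new : x1 + (δ • τ + (-m) • u) ∈ K := by
    refine half_ball hKc hKv ha.le hc0 hx1K hx1 hn1 hd1 (by rw [hvv]; exact hlea)
      (by rw [hvn1]; linarith) ?_
    rw [hvv, hvn1]
    have h3 : θ ^ 2 * (δ ^ 2 + m ^ 2) ≤ θ ^ 2 * (2 * δ ^ 2) :=
      mul_le_mul_of_nonneg_left hle2 (sq_nonneg _)
    have h4 : (2 * θ * δ) ^ 2 ≤ (-(m * (u ⬝ᵥ n1))) ^ 2 := by
      rw [neg_sq]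
      exact pow_le_pow_left₀ h2θδ hneg1' 2
    linarith
  have hx2new : x2 + (δ • τ + m • u) ∈ K := by
    refine half_ball hKc hKv ha.le hc0 hx2K hx2 hn2 hd2 (by rw [hvv2]; exact hlea)
      (by rw [hvn2]; linarith) ?_
    rw [hvv2, hvn2]
    have h3 : θ ^ 2 * (δ ^ 2 + m ^ 2) ≤ θ ^ 2 * (2 * δ ^ 2) :=
      mul_le_mul_of_nonneg_left hle2 (sq_nonneg _)
    have h4 : (2 * θ * δ) ^ 2 ≤ (δ * (τ ⬝ᵥ n2) + m * (u ⬝ᵥ n2)) ^ 2 := by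
      have h5 : 2 * θ * δ ≤ -(δ * (τ ⬝ᵥ n2) + m * (u ⬝ᵥ n2)) := by linarith
      have := pow_le_pow_left₀ h2θδ h5 2
      rwa [neg_sq] at this
    linarith
  refine ⟨δ • τ + (-m) • u, m, hm0', hx1new, ?_, ?_, ?_⟩
  · have h3 : x2 + (δ • τ + (-m) • u) + (2 * m) • u = x2 + (δ • τ + m • u) := by
      ext j
      simp only [Pi.add_apply, Pi.smul_apply, smul_eq_mul]
      ring
    rw [h3]
    exact hx2new
  · rw [perpSq_add_smul hu, perpSq_smul, perpSq, hττ, hτu, hδ]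
    apply le_of_eq
    ring
  · rw [hm, hδ]
    apply le_of_eq
    ring

/-- the tip lemma: if both tips of a chord avoid the wet set then a nearby parallel chord is long -/
theorem tip_shift {K : Set F3} (hKc : IsClosed K) (hKv : Convex ℝ K) (hint : (interior K).Nonempty)
    (h0 : (0 : F3) ∈ K) (he : ∀ i, (Pi.single i 1 : F3) ∈ K) (hbox : ∀ x ∈ K, ∀ j, |x j| ≤ 1)
    {a c0 θ c r L : ℝ} {u p1 p2 : F3} (ha : 0 < a) (hθ : 0 < θ) (hcθ : 2 * θ ≤ c) (hc : c ≤ 1 / 100)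
    (hc0 : 2 * (1 - c0) ≤ θ ^ 2) (hu : u ⬝ᵥ u = 1) (hL : 0 < L) (hp : p1 - p2 = L • u)
    (hp1 : p1 ∈ K) (hp2 : p2 ∈ K) (hi1 : p1 ∉ interior K) (hi2 : p2 ∉ interior K)
    (hr0 : 0 ≤ r) (hr1 : r ≤ 1) (hra : r * L ≤ a) (hLm : 4 * (c + θ) * L ≤ 1)
    (hx1 : p1 - (r * L) • u ∉ W K a c0) (hx2 : p2 + (r * L) • u ∉ W K a c0) :
    ∃ (v : F3) (m : ℝ), 0 ≤ m ∧ (p1 - (r * L) • u) + v ∈ K ∧
      (p2 + (r * L) • u) + v + (2 * m) • u ∈ K ∧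
      ((a ^ 2 * c ^ 4 / 64 ≤ perpSq u v ∧ m = 0) ∨
        (a ^ 2 / 4 ≤ perpSq u v ∧ 2 * m ≤ 4 * (c + θ) * a * L)) := by
  have hc00 : 0 < c := by linarith
  obtain ⟨n1, hn1, hs1⟩ := supporting_normal hKv hint hi1
  obtain ⟨n2, hn2, hs2⟩ := supporting_normal hKv hint hi2
  -- the tips are in K
  have hx1K : p1 - (r * L) • u ∈ K := by
    have : p1 - (r * L) • u = (1 - r) • p1 + r • p2 := by
      have h3 : p1 = p2 + L • u := by rw [← hp]; abel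
      rw [h3]
      ext j
      simp only [Pi.add_apply, Pi.sub_apply, Pi.smul_apply, smul_eq_mul]
      ring
    rw [this]
    exact hKv hp1 hp2 (by linarith) hr0 (by ring)
  have hx2K : p2 + (r * L) • u ∈ K := by
    have : p2 + (r * L) • u = (1 - r) • p2 + r • p1 := by
      have h3 : p1 = p2 + L • u := by rw [← hp]; abel
      rw [h3]
      ext j
      simp only [Pi.add_apply, Pi.smul_apply, smul_eq_mul]
      ring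
    rw [this]
    exact hKv hp2 hp1 (by linarith) hr0 (by ring)
  -- signs
  have hs : 0 ≤ u ⬝ᵥ n1 := by
    have := hs1 p2 hp2
    have h3 : p2 - p1 = (-L) • u := by rw [neg_smul, ← hp]; abel
    rw [h3, smul_dotProduct, smul_eq_mul] at this
    nlinarith
  have hs' : u ⬝ᵥ n2 ≤ 0 := by
    have := hs2 p1 hp1
    rw [hp, smul_dotProduct, smul_eq_mul] at this
    nlinarith
  have hu1 : (u ⬝ᵥ n1) ^ 2 ≤ 1 := by
    have := cs3 u n1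
    rwa [hu, hn1, one_mul] at this
  have hu2 : (u ⬝ᵥ n2) ^ 2 ≤ 1 := by
    have := cs3 u n2
    rwa [hu, hn2, one_mul] at this
  have hs1le : u ⬝ᵥ n1 ≤ 1 := by nlinarith
  have hs2le : -(u ⬝ᵥ n2) ≤ 1 := by nlinarith
  -- depth at the tips
  have hrL0 : 0 ≤ r * L := mul_nonneg hr0 hL.le
  have hd1 : ∀ z ∈ K, (z - (p1 - (r * L) • u)) ⬝ᵥ n1 ≤ a := by
    intro z hz
    have h3 : z - (p1 - (r * L) • u) = (z - p1) + (r * L) • u := by abel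
    rw [h3, add_dotProduct, smul_dotProduct, smul_eq_mul]
    have h4 := hs1 z hz
    nlinarith
  have hd2 : ∀ z ∈ K, (z - (p2 + (r * L) • u)) ⬝ᵥ n2 ≤ a := by
    intro z hz
    have h3 : z - (p2 + (r * L) • u) = (z - p2) + (-(r * L)) • u := by
      rw [neg_smul]; abel
    rw [h3, add_dotProduct, smul_dotProduct, smul_eq_mul]
    have h4 := hs2 z hz
    nlinarith
  by_cases hcase : c ^ 2 ≤ (n1 + n2) ⬝ᵥ (n1 + n2)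
  · obtain ⟨v, h1, h2, h3⟩ := tip_caseA hKc hKv ha hθ hcθ (by linarith) hc0 hu hn1 hn2 hs hs'
      hx1K hx2K hx1 hx2 hd1 hd2 hcase
    exact ⟨v, 0, le_rfl, h1, by simpa using h2, Or.inl ⟨h3, rfl⟩⟩
  · push Not at hcase
    obtain ⟨h5, h6⟩ := chord_crosses h0 he hbox hc00 hc hn1 hn2 hp hp1 hp2 hs1 hs2 hcase
    obtain ⟨v, m, hm, h1, h2, h3, h4⟩ := tip_caseB hKc hKv ha hθ hc00 hc0 hu hn1 hn2 hL hLm h5 h6
      hx1K hx2K hx1 hx2 hd1 hd2 hcase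
    exact ⟨v, m, hm, h1, h2, Or.inr ⟨h3, h4⟩⟩

end Vale.Agent.Lib.P243w
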