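import Mathlib
import Vale.Agent.Lib.P243w.Plateau
import Vale.Agent.Lib.P243w.Tip

open MeasureTheory Set
open scoped Matrix

namespace Vale.Agent.Lib.P243w

section
variable (Φ : (Y2 × ℝ) ≃L[ℝ] F3)

theorem Phi_eq (y : Y2) (t : ℝ) : Φ (y, t) = Φ (y, 0) + t • Φ (0, 1) := by
  rw [← map_smul, ← map_add]
  simp

theorem Phi_add (y : Y2) (t : ℝ) (v : F3) :
    Φ (y, t) + v = Φ (y + (Φ.symm v).1, t + (Φ.symm v).2) := by
  have h : v = Φ (Φ.symm v) := by simp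
  conv_lhs => rw [h]
  rw [← map_add]
  rfl

theorem Phi_add_smul (y : Y2) (t s : ℝ) : Φ (y, t) + s • Φ (0, 1) = Φ (y, t + s) := by
  rw [← map_smul, ← map_add]
  simp

theorem pull_compact {K : Set F3} (hKc : IsCompact K) : IsCompact (Φ ⁻¹' K) := by
  have : Φ ⁻¹' K = Φ.symm '' K := by
    ext x
    constructor
    · intro hx
      exact ⟨Φ x, hx, by simp⟩
    · rintro ⟨z, hz, rfl⟩
      simpa using hz
  rw [this]
  exact hKc.image Φ.symm.continuous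

theorem pull_convex {K : Set F3} (hKv : Convex ℝ K) : Convex ℝ (Φ ⁻¹' K) :=
  hKv.linear_preimage Φ.toLinearEquiv.toLinearMap

theorem flen_ge {X : Set (Y2 × ℝ)} (hXc : IsCompact X) (hXv : Convex ℝ X) {y : Y2} {s s' : ℝ}
    (hs : (y, s) ∈ X) (hs' : (y, s') ∈ X) : s' - s ≤ flen X y := by
  obtain ⟨t₂, t₁, hle, hf⟩ := fib_eq_Icc hXc hXv (y := y) ⟨(y, s), hs, rfl⟩
  rw [flen_of_Icc hle hf]
  have h1 : s ∈ fib X y := hs
  have h2 : s' ∈ fib X y := hs'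
  rw [hf] at h1 h2
  linarith [h1.1, h2.2]

/-- the plateau step, in the coordinates given by `Φ` -/
theorem plateau_step {K : Set F3} (hKc : IsCompact K) (hKv : Convex ℝ K)
    (hdiam : ∀ x ∈ K, ∀ y ∈ K, (x - y) ⬝ᵥ (x - y) ≤ 12) (hu : Φ (0, 1) ⬝ᵥ Φ (0, 1) = 1)
    {y : Y2} {q1 q2 m : ℝ} {v : F3} {N : ℕ} (h1 : Φ (y, q1) ∈ K) (h2 : Φ (y, q2) ∈ K)
    (h1' : Φ (y, q1) + v ∈ K) (h2' : Φ (y, q2) + v + (2 * m) • Φ (0, 1) ∈ K)
    (hm : 0 ≤ m) (hL' : 0 < q1 - q2 - 2 * m) (hN : 0 < N)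
    (hNv : 108 < (N : ℝ) ^ 2 * perpSq (Φ (0, 1)) v) :
    ENNReal.ofReal ((q1 - q2 - 2 * m) * (1 / 3 + 1 / (32 * N))) * volume (shadow (Φ ⁻¹' K))
      ≤ volume (Φ ⁻¹' K) := by
  have hXc := pull_compact Φ hKc
  have hXv := pull_convex Φ hKv
  obtain ⟨y₀, hy₀⟩ : ∃ y₀ : Y2, y₀ = (Φ.symm v).1 := ⟨_, rfl⟩
  obtain ⟨τ, hτ⟩ : ∃ τ : ℝ, τ = (Φ.symm v).2 := ⟨_, rfl⟩
  have e1 : Φ (y, q1) + v = Φ (y + y₀, q1 + τ) := by rw [Phi_add, hy₀, hτ]
  have e2 : Φ (y, q2) + v + (2 * m) • Φ (0, 1) = Φ (y + y₀, q2 + τ + 2 * m) := by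
    rw [Phi_add, Phi_add_smul, hy₀, hτ]
  rw [e1] at h1'
  rw [e2] at h2'
  have hy : y ∈ shadow (Φ ⁻¹' K) := ⟨(y, q1), h1, rfl⟩
  have hy' : y + y₀ ∈ shadow (Φ ⁻¹' K) := ⟨(y + y₀, q1 + τ), h1', rfl⟩
  apply volume_ge_plateau hXc hXv hy hy' hL' ?_ ?_ hN ?_
  · have := flen_ge hXc hXv (y := y) (s := q2) (s' := q1) h2 h1
    linarith
  · have := flen_ge hXc hXv (y := y + y₀) (s := q2 + τ + 2 * m) (s' := q1 + τ) h2' h1'
    linarith
  · rintro _ ⟨⟨zy, zt⟩, hz, rfl⟩ _ ⟨⟨wy, wt⟩, hw, rfl⟩ lam hl1 hl2 heq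
    simp only at heq
    have hz' : Φ (zy, zt) ∈ K := hz
    have hw' : Φ (wy, wt) ∈ K := hw
    obtain ⟨k, hk⟩ : ∃ k, k = Φ (zy, zt) - Φ (wy, wt) := ⟨_, rfl⟩
    have hkk : k ⬝ᵥ k ≤ 12 := by rw [hk]; exact hdiam _ hz' _ hw'
    have hsymm : (Φ.symm k).1 = zy - wy := by
      rw [hk, map_sub]
      simp
    -- the combination lies on the axis
    have hax : (1 - lam) • k - ((N : ℝ) * lam) • v
        = (Φ.symm ((1 - lam) • k - ((N : ℝ) * lam) • v)).2 • Φ (0, 1) := by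
      obtain ⟨w, hw⟩ : ∃ w, w = (1 - lam) • k - ((N : ℝ) * lam) • v := ⟨_, rfl⟩
      rw [← hw]
      have h3 : (Φ.symm w).1 = 0 := by
        rw [hw, map_sub, map_smul, map_smul]
        simp only [Prod.fst_sub, Prod.smul_fst]
        rw [hsymm, ← hy₀]
        have : y + y₀ - y = y₀ := by abel
        rw [this] at heq
        rw [heq]
        simp
      have h4 : w = Φ (Φ.symm w) := by simp
      conv_lhs => rw [h4]
      have h5 : Φ.symm w = ((0 : Y2), (Φ.symm w).2) := by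
        ext1
        · exact h3
        · rfl
      rw [h5, ← map_smul]
      simp
    obtain ⟨t, ht⟩ : ∃ t, t = (Φ.symm ((1 - lam) • k - ((N : ℝ) * lam) • v)).2 := ⟨_, rfl⟩
    rw [← ht] at hax
    have hkv : (1 - lam) • k = ((N : ℝ) * lam) • v + t • Φ (0, 1) := by
      rw [← hax]
      abel
    have hperp : (1 - lam) ^ 2 * perpSq (Φ (0, 1)) k = ((N : ℝ) * lam) ^ 2 * perpSq (Φ (0, 1)) v := by
      rw [← perpSq_smul, hkv, perpSq_add_smul hu, perpSq_smul]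
    have hk12 : perpSq (Φ (0, 1)) k ≤ 12 := le_trans (perpSq_le _ _) hkk
    have hPpos : 0 < (N : ℝ) ^ 2 * perpSq (Φ (0, 1)) v := by linarith
    have hlam2 : 1 / 16 ≤ lam ^ 2 := by nlinarith
    have hlam3 : (1 - lam) ^ 2 ≤ 9 / 16 := by nlinarith
    have h6 : ((N : ℝ) * lam) ^ 2 * perpSq (Φ (0, 1)) v
        = lam ^ 2 * ((N : ℝ) ^ 2 * perpSq (Φ (0, 1)) v) := by ring
    have h7 : (1 - lam) ^ 2 * perpSq (Φ (0, 1)) k ≤ 9 / 16 * 12 := by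
      have h8 : 0 ≤ (1 - lam) ^ 2 := sq_nonneg _
      rcases le_total 0 (perpSq (Φ (0, 1)) k) with h9 | h9
      · exact mul_le_mul hlam3 hk12 h9 (by norm_num)
      · have : (1 - lam) ^ 2 * perpSq (Φ (0, 1)) k ≤ 0 := mul_nonpos_of_nonneg_of_nonpos h8 h9
        linarith
    have h8 : 1 / 16 * ((N : ℝ) ^ 2 * perpSq (Φ (0, 1)) v)
        ≤ lam ^ 2 * ((N : ℝ) ^ 2 * perpSq (Φ (0, 1)) v) :=
      mul_le_mul_of_nonneg_right hlam2 hPpos.le
    rw [hperp, h6] at h7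
    linarith

/-- scaling step -/
theorem scale_up {A V' : ENNReal} {L ρ C : ℝ} (hL : 0 ≤ L) (hC : 0 ≤ C) (h : 1 ≤ C * ρ)
    (hV : ENNReal.ofReal (ρ * L) * A ≤ V') : ENNReal.ofReal L * A ≤ ENNReal.ofReal C * V' := by
  have h1 : ENNReal.ofReal L ≤ ENNReal.ofReal C * ENNReal.ofReal (ρ * L) := by
    rw [← ENNReal.ofReal_mul hC]
    apply ENNReal.ofReal_le_ofReal
    have : C * (ρ * L) = (C * ρ) * L := by ring
    rw [this]
    nlinarith
  calc ENNReal.ofReal L * A ≤ (ENNReal.ofReal C * ENNReal.ofReal (ρ * L)) * A := by gcongr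
    _ = ENNReal.ofReal C * (ENNReal.ofReal (ρ * L) * A) := by rw [mul_assoc]
    _ ≤ ENNReal.ofReal C * V' := by gcongr

/-- the end point of a fiber is not interior -/
theorem end_not_interior {K : Set F3} {y : Y2} {t₂ t₁ : ℝ} (hf : fib (Φ ⁻¹' K) y = Icc t₂ t₁) :
    Φ (y, t₁) ∉ interior K ∧ Φ (y, t₂) ∉ interior K := by
  have hcont : Continuous (fun t : ℝ => Φ (y, t)) := by fun_prop
  have hopen : IsOpen ((fun t : ℝ => Φ (y, t)) ⁻¹' interior K) := isOpen_interior.preimage hcont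
  have hsub : (fun t : ℝ => Φ (y, t)) ⁻¹' interior K ⊆ Icc t₂ t₁ := by
    intro t ht
    rw [← hf]
    exact (interior_subset (show Φ (y, t) ∈ interior K from ht) : Φ (y, t) ∈ K)
  have hsub' : (fun t : ℝ => Φ (y, t)) ⁻¹' interior K ⊆ Ioo t₂ t₁ := by
    rw [← interior_Icc]
    exact interior_maximal hsub hopen
  constructor
  · intro h
    exact lt_irrefl _ (hsub' (show t₁ ∈ _ from h)).2
  · intro h
    exact lt_irrefl _ (hsub' (show t₂ ∈ _ from h)).1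

/-- a chord whose tips avoid the wet set is not extremal -/
theorem near_extremal {K : Set F3} (hKc : IsCompact K) (hKv : Convex ℝ K)
    (hint : (interior K).Nonempty) (h0 : (0 : F3) ∈ K) (he : ∀ i, (Pi.single i 1 : F3) ∈ K)
    (hbox : ∀ x ∈ K, ∀ j, |x j| ≤ 1) (hu : Φ (0, 1) ⬝ᵥ Φ (0, 1) = 1)
    {a c0 θ c r : ℝ} {NA NB : ℕ} (ha : 0 < a) (hθ : 0 < θ) (hcθ : 2 * θ ≤ c) (hc : c ≤ 1 / 100)
    (hc0 : 2 * (1 - c0) ≤ θ ^ 2) (hr0 : 0 ≤ r) (hr1 : r ≤ 1 / 10) (hra : r * (7 / 2) ≤ a)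
    (hLm : 4 * (c + θ) * (7 / 2) ≤ 1) (hNA0 : 0 < NA) (hNB0 : 0 < NB)
    (hNA : 108 < (NA : ℝ) ^ 2 * (a ^ 2 * c ^ 4 / 64)) (hNB : 108 < (NB : ℝ) ^ 2 * (a ^ 2 / 4))
    (hκ : 0 < 1 - 2 * r - 4 * (c + θ) * a)
    (hA : 1 ≤ 3 * (1 - r) * ((1 - 2 * r) * (1 / 3 + 1 / (32 * NA))))
    (hB : 1 ≤ 3 * (1 - r) * ((1 - 2 * r - 4 * (c + θ) * a) * (1 / 3 + 1 / (32 * NB))))
    {y : Y2} {t₂ t₁ : ℝ} (hf : fib (Φ ⁻¹' K) y = Icc t₂ t₁) (hL : 0 < t₁ - t₂)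
    (hx1 : Φ (y, t₁ - r * (t₁ - t₂)) ∉ W K a c0) (hx2 : Φ (y, t₂ + r * (t₁ - t₂)) ∉ W K a c0) :
    ENNReal.ofReal (t₁ - t₂) * volume (shadow (Φ ⁻¹' K))
      ≤ ENNReal.ofReal (3 * (1 - r)) * volume (Φ ⁻¹' K) := by
  obtain ⟨L, hLd⟩ : ∃ L, L = t₁ - t₂ := ⟨_, rfl⟩
  rw [← hLd] at hL hx1 hx2 ⊢
  have hmem1 : Φ (y, t₁) ∈ K := by
    have : t₁ ∈ fib (Φ ⁻¹' K) y := by rw [hf]; exact ⟨by linarith, le_rfl⟩
    exact this
  have hmem2 : Φ (y, t₂) ∈ K := by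
    have : t₂ ∈ fib (Φ ⁻¹' K) y := by rw [hf]; exact ⟨le_rfl, by linarith⟩
    exact this
  have hdiam : ∀ x ∈ K, ∀ y ∈ K, (x - y) ⬝ᵥ (x - y) ≤ 12 := fun x hx y hy => diff_sq_le hbox hx hy
  have hp : Φ (y, t₁) - Φ (y, t₂) = L • Φ (0, 1) := by
    have := Phi_add_smul Φ y t₂ L
    have h3 : t₂ + L = t₁ := by rw [hLd]; ring
    rw [h3] at this
    rw [← this]
    abel
  have hLle : L ≤ 7 / 2 := by
    have h3 := hdiam _ hmem1 _ hmem2
    rw [hp, smul_dotProduct, dotProduct_smul, hu] at h3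
    simp only [smul_eq_mul, mul_one] at h3
    nlinarith
  have hrL : r * L ≤ a := by nlinarith
  have hLm' : 4 * (c + θ) * L ≤ 1 := by
    have h3 : 0 ≤ 4 * (c + θ) := by
      have : 0 < c := by linarith
      positivity
    nlinarith
  obtain ⟨hi1, hi2⟩ := end_not_interior Φ hf
  have e1 : Φ (y, t₁ - r * L) = Φ (y, t₁) - (r * L) • Φ (0, 1) := by
    have := Phi_add_smul Φ y t₁ (-(r * L))
    rw [neg_smul, ← sub_eq_add_neg, ← sub_eq_add_neg] at this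
    exact this.symm
  have e2 : Φ (y, t₂ + r * L) = Φ (y, t₂) + (r * L) • Φ (0, 1) := (Phi_add_smul Φ y t₂ (r * L)).symm
  rw [e1] at hx1
  rw [e2] at hx2
  obtain ⟨v, m, hm, hv1, hv2, hcases⟩ := tip_shift hKc.isClosed hKv hint h0 he hbox ha hθ hcθ hc hc0
    hu hL hp hmem1 hmem2 hi1 hi2 hr0 (by linarith) hrL hLm' hx1 hx2
  rw [← e1] at hv1
  rw [← e2] at hv2
  have hx1K : Φ (y, t₁ - r * L) ∈ K := by
    have : t₁ - r * L ∈ fib (Φ ⁻¹' K) y := by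
      rw [hf]
      constructor <;> nlinarith
    exact this
  have hx2K : Φ (y, t₂ + r * L) ∈ K := by
    have : t₂ + r * L ∈ fib (Φ ⁻¹' K) y := by
      rw [hf]
      constructor <;> nlinarith
    exact this
  have hgap : (t₁ - r * L) - (t₂ + r * L) = (1 - 2 * r) * L := by
    rw [hLd]; ring
  rcases hcases with ⟨hP, hm0⟩ | ⟨hP, hmle⟩
  · -- case A
    have hN : 108 < (NA : ℝ) ^ 2 * perpSq (Φ (0, 1)) v := by
      have h3 : (NA : ℝ) ^ 2 * (a ^ 2 * c ^ 4 / 64) ≤ (NA : ℝ) ^ 2 * perpSq (Φ (0, 1)) v :=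
        mul_le_mul_of_nonneg_left hP (sq_nonneg _)
      linarith
    have hpos : 0 < (t₁ - r * L) - (t₂ + r * L) - 2 * m := by
      rw [hm0, hgap]
      have : 0 < (1 - 2 * r) * L := mul_pos (by linarith) hL
      linarith
    have := plateau_step Φ hKc hKv hdiam hu hx1K hx2K hv1 hv2 hm hpos hNA0 hN
    rw [hm0, hgap] at this
    refine scale_up hL.le (by linarith) hA ?_
    refine le_trans (le_of_eq ?_) this
    congr 2
    ring
  · -- case B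
    have hN : 108 < (NB : ℝ) ^ 2 * perpSq (Φ (0, 1)) v := by
      have h3 : (NB : ℝ) ^ 2 * (a ^ 2 / 4) ≤ (NB : ℝ) ^ 2 * perpSq (Φ (0, 1)) v :=
        mul_le_mul_of_nonneg_left hP (sq_nonneg _)
      linarith
    have hlow : (1 - 2 * r - 4 * (c + θ) * a) * L ≤ (t₁ - r * L) - (t₂ + r * L) - 2 * m := by
      rw [hgap]
      have : (1 - 2 * r - 4 * (c + θ) * a) * L = (1 - 2 * r) * L - 4 * (c + θ) * a * L := by ring
      rw [this]
      linarith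
    have hpos : 0 < (t₁ - r * L) - (t₂ + r * L) - 2 * m :=
      lt_of_lt_of_le (mul_pos hκ hL) hlow
    have := plateau_step Φ hKc hKv hdiam hu hx1K hx2K hv1 hv2 hm hpos hNB0 hN
    refine scale_up hL.le (by linarith) hB ?_
    refine le_trans ?_ this
    gcongr ?_ * _
    apply ENNReal.ofReal_le_ofReal
    have hg : 0 ≤ 1 / 3 + 1 / (32 * (NB : ℝ)) := by positivity
    have e3 : (1 - 2 * r - 4 * (c + θ) * a) * (1 / 3 + 1 / (32 * (NB : ℝ))) * L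
        = (1 - 2 * r - 4 * (c + θ) * a) * L * (1 / 3 + 1 / (32 * (NB : ℝ))) := by ring
    rw [e3]
    exact mul_le_mul_of_nonneg_right hlow hg

/-- moving a point of the wet set by a short vector keeps it in a larger wet set -/
theorem W_shift {K : Set F3} {a c0 t : ℝ} {x x' u : F3} (hx : x ∈ W K a c0) (hx' : x' ∈ K)
    (he : x' = x + t • u) (hu : u ⬝ᵥ u = 1) (ht : |t| ≤ a) : x' ∈ W K (2 * a) c0 := by
  obtain ⟨_, n, n', hn, hn', hnn, h1, h2⟩ := hx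
  have key : ∀ m : F3, m ⬝ᵥ m = 1 → (∀ z ∈ K, (z - x) ⬝ᵥ m ≤ a) → ∀ z ∈ K, (z - x') ⬝ᵥ m ≤ 2 * a := by
    intro m hm hd z hz
    have h3 : z - x' = (z - x) - t • u := by rw [he]; abel
    rw [h3, sub_dotProduct, smul_dotProduct, smul_eq_mul]
    have h4 := hd z hz
    have h5 := cs3 u m
    rw [hu, hm, one_mul] at h5
    have h6 : |u ⬝ᵥ m| ≤ 1 := by
      rw [abs_le]
      constructor <;> nlinarith
    have h7 : |t * (u ⬝ᵥ m)| ≤ a := by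
      rw [abs_mul]
      have := abs_nonneg t
      nlinarith [abs_nonneg (u ⬝ᵥ m)]
    have h8 := (abs_le.mp h7).1
    linarith
  exact ⟨hx', n, n', hn, hn', hnn, key n hn h1, key n' hn' h2⟩

/-- the per-fiber inequality -/
theorem per_fiber {K : Set F3} (hKc : IsCompact K) (hKv : Convex ℝ K)
    (hint : (interior K).Nonempty) (h0 : (0 : F3) ∈ K) (he : ∀ i, (Pi.single i 1 : F3) ∈ K)
    (hbox : ∀ x ∈ K, ∀ j, |x j| ≤ 1) (hu : Φ (0, 1) ⬝ᵥ Φ (0, 1) = 1)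
    {a c0 θ c r : ℝ} {NA NB : ℕ} (ha : 0 < a) (hθ : 0 < θ) (hcθ : 2 * θ ≤ c) (hc : c ≤ 1 / 100)
    (hc0 : 2 * (1 - c0) ≤ θ ^ 2) (hr0 : 0 ≤ r) (hr1 : r ≤ 1 / 10) (hra : r * (7 / 2) ≤ a)
    (hLm : 4 * (c + θ) * (7 / 2) ≤ 1) (hNA0 : 0 < NA) (hNB0 : 0 < NB)
    (hNA : 108 < (NA : ℝ) ^ 2 * (a ^ 2 * c ^ 4 / 64)) (hNB : 108 < (NB : ℝ) ^ 2 * (a ^ 2 / 4))
    (hκ : 0 < 1 - 2 * r - 4 * (c + θ) * a)
    (hA : 1 ≤ 3 * (1 - r) * ((1 - 2 * r) * (1 / 3 + 1 / (32 * NA))))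
    (hB : 1 ≤ 3 * (1 - r) * ((1 - 2 * r - 4 * (c + θ) * a) * (1 / 3 + 1 / (32 * NB))))
    (y : Y2) :
    volume {t : ℝ | Φ (y, t) ∈ K \ W K (2 * a) c0} * volume (shadow (Φ ⁻¹' K))
      ≤ ENNReal.ofReal (3 * (1 - r)) * volume (Φ ⁻¹' K) := by
  have hXc := pull_compact Φ hKc
  have hXv := pull_convex Φ hKv
  by_cases hy : y ∈ shadow (Φ ⁻¹' K)
  swap
  · have hempty : {t : ℝ | Φ (y, t) ∈ K \ W K (2 * a) c0} = ∅ := by
      apply Set.eq_empty_of_forall_notMem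
      intro t ht
      exact hy ⟨(y, t), ht.1, rfl⟩
    rw [hempty]
    simp
  obtain ⟨t₂, t₁, hle, hf⟩ := fib_eq_Icc hXc hXv hy
  have hsubS : {t : ℝ | Φ (y, t) ∈ K \ W K (2 * a) c0} ⊆ Icc t₂ t₁ := by
    intro t ht
    rw [← hf]
    exact ht.1
  rcases hle.eq_or_lt with heq | hlt
  · have : volume {t : ℝ | Φ (y, t) ∈ K \ W K (2 * a) c0} = 0 := by
      apply measure_mono_null hsubS
      rw [heq]
      simp
    rw [this]
    simp
  have hL : 0 < t₁ - t₂ := by linarith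
  have hsimple : ENNReal.ofReal ((t₁ - t₂) / 3) * volume (shadow (Φ ⁻¹' K)) ≤ volume (Φ ⁻¹' K) := by
    have := volume_ge_simple hXc hXv hy
    rwa [flen_of_Icc hle hf] at this
  -- the reduced fiber bound
  have hreduced : ENNReal.ofReal ((1 - r) * (t₁ - t₂)) * volume (shadow (Φ ⁻¹' K))
      ≤ ENNReal.ofReal (3 * (1 - r)) * volume (Φ ⁻¹' K) := by
    refine scale_up (by nlinarith) (by nlinarith) (ρ := 1 / (3 * (1 - r))) ?_ ?_
    · have : 0 < 3 * (1 - r) := by linarith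
      rw [mul_one_div_cancel this.ne']
    · refine le_trans (le_of_eq ?_) hsimple
      congr 2
      have : 1 - r ≠ 0 := by linarith
      field_simp
  have hLle : t₁ - t₂ ≤ 7 / 2 := by
    have hmem1 : Φ (y, t₁) ∈ K := by
      have : t₁ ∈ fib (Φ ⁻¹' K) y := by rw [hf]; exact ⟨by linarith, le_rfl⟩
      exact this
    have hmem2 : Φ (y, t₂) ∈ K := by
      have : t₂ ∈ fib (Φ ⁻¹' K) y := by rw [hf]; exact ⟨le_rfl, by linarith⟩
      exact this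
    have hp : Φ (y, t₁) - Φ (y, t₂) = (t₁ - t₂) • Φ (0, 1) := by
      have := Phi_add_smul Φ y t₂ (t₁ - t₂)
      have h3 : t₂ + (t₁ - t₂) = t₁ := by ring
      rw [h3] at this
      rw [← this]
      abel
    have h3 := diff_sq_le hbox hmem1 hmem2
    rw [hp, smul_dotProduct, dotProduct_smul, hu] at h3
    simp only [smul_eq_mul, mul_one] at h3
    nlinarith
  have hrL : r * (t₁ - t₂) ≤ a := by nlinarith
  have hrL0 : 0 ≤ r * (t₁ - t₂) := mul_nonneg hr0 hL.le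
  have hrLt : r * (t₁ - t₂) ≤ t₁ - t₂ := by nlinarith
  by_cases hx1 : Φ (y, t₁ - r * (t₁ - t₂)) ∈ W K a c0
  · -- the upper tip is wet
    have hsub : {t : ℝ | Φ (y, t) ∈ K \ W K (2 * a) c0} ⊆ Icc t₂ (t₁ - r * (t₁ - t₂)) := by
      intro t ht
      have hI := hsubS ht
      refine ⟨hI.1, ?_⟩
      by_contra hcon
      push Not at hcon
      apply ht.2
      have h3 : Φ (y, t) = Φ (y, t₁ - r * (t₁ - t₂)) + (t - (t₁ - r * (t₁ - t₂))) • Φ (0, 1) := by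
        rw [Phi_add_smul]
        congr 2
        ring
      refine W_shift hx1 ht.1 h3 hu ?_
      rw [abs_of_nonneg (by linarith)]
      linarith [hI.2]
    calc _ ≤ volume (Icc t₂ (t₁ - r * (t₁ - t₂))) * volume (shadow (Φ ⁻¹' K)) := by
          gcongr
      _ = ENNReal.ofReal ((1 - r) * (t₁ - t₂)) * volume (shadow (Φ ⁻¹' K)) := by
          rw [Real.volume_Icc]
          congr 2
          ring
      _ ≤ _ := hreduced
  by_cases hx2 : Φ (y, t₂ + r * (t₁ - t₂)) ∈ W K a c0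
  · have hsub : {t : ℝ | Φ (y, t) ∈ K \ W K (2 * a) c0} ⊆ Icc (t₂ + r * (t₁ - t₂)) t₁ := by
      intro t ht
      have hI := hsubS ht
      refine ⟨?_, hI.2⟩
      by_contra hcon
      push Not at hcon
      apply ht.2
      have h3 : Φ (y, t) = Φ (y, t₂ + r * (t₁ - t₂)) + (t - (t₂ + r * (t₁ - t₂))) • Φ (0, 1) := by
        rw [Phi_add_smul]
        congr 2
        ring
      refine W_shift hx2 ht.1 h3 hu ?_
      rw [abs_of_nonpos (by linarith)]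
      linarith [hI.1]
    calc _ ≤ volume (Icc (t₂ + r * (t₁ - t₂)) t₁) * volume (shadow (Φ ⁻¹' K)) := by
          gcongr
      _ = ENNReal.ofReal ((1 - r) * (t₁ - t₂)) * volume (shadow (Φ ⁻¹' K)) := by
          rw [Real.volume_Icc]
          congr 2
          ring
      _ ≤ _ := hreduced
  · have := near_extremal Φ hKc hKv hint h0 he hbox hu ha hθ hcθ hc hc0 hr0 hr1 hra hLm hNA0 hNB0
      hNA hNB hκ hA hB hf hL hx1 hx2
    calc _ ≤ volume (Icc t₂ t₁) * volume (shadow (Φ ⁻¹' K)) := by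
          gcongr
      _ = ENNReal.ofReal (t₁ - t₂) * volume (shadow (Φ ⁻¹' K)) := by
          rw [Real.volume_Icc]
      _ ≤ _ := this

end

end Vale.Agent.Lib.P243w
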