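import Mathlib
import Vale.Agent.Lib.P243w.Chord
import Vale.Agent.Lib.P243w.WetVolume

open MeasureTheory Set
open scoped Matrix

namespace Vale.Agent.Lib.P243w

/-- Haar factor of a continuous linear equivalence -/
theorem exists_factor {V W' : Type*} [NormedAddCommGroup V] [NormedSpace ℝ V]
    [NormedAddCommGroup W'] [NormedSpace ℝ W'] [MeasurableSpace V] [BorelSpace V]
    [MeasurableSpace W'] [BorelSpace W'] [FiniteDimensional ℝ V] [FiniteDimensional ℝ W']
    (μ : Measure V) (ν : Measure W') [μ.IsAddHaarMeasure] [ν.IsAddHaarMeasure] (Φ : V ≃L[ℝ] W') :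
    ∃ c : ENNReal, c ≠ 0 ∧ c ≠ ⊤ ∧ ∀ S : Set W', μ (Φ ⁻¹' S) = c * ν S := by
  have : (μ.map Φ).IsAddHaarMeasure := Φ.isAddHaarMeasure_map μ
  have h := Measure.isAddLeftInvariant_eq_smul (μ.map Φ) ν
  have hpos := Measure.addHaarScalarFactor_pos_of_isAddHaarMeasure (μ.map Φ) ν
  refine ⟨(Measure.addHaarScalarFactor (μ.map Φ) ν : NNReal), ?_, ENNReal.coe_ne_top, fun S => ?_⟩
  · exact_mod_cast hpos.ne'
  · have hmap : μ (Φ ⁻¹' S) = (μ.map Φ) S := by
      have := Φ.toHomeomorph.toMeasurableEquiv.map_apply (μ := μ) S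
      exact this.symm
    have h2 : (μ.map Φ) S = (Measure.addHaarScalarFactor (μ.map Φ) ν • ν) S := by
      conv_lhs => rw [h]
    rw [hmap, h2]
    rfl

theorem volume_ge_27 {K : Set F3} (hKv : Convex ℝ K) (h0 : (0 : F3) ∈ K)
    (he : ∀ i, (Pi.single i 1 : F3) ∈ K) : ENNReal.ofReal (1 / 27) ≤ volume K := by
  have hsub : Icc (0 : F3) (fun _ => 1 / 3) ⊆ K := by
    intro x hx
    have h1 : ∀ j, 0 ≤ x j := fun j => hx.1 j
    have h2 : ∀ j, x j ≤ 1 / 3 := fun j => hx.2 j
    have hw : ∀ i ∈ (Finset.univ : Finset (Fin 4)),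
        0 ≤ (![x 0, x 1, x 2, 1 - x 0 - x 1 - x 2] : Fin 4 → ℝ) i := by
      intro i _
      fin_cases i <;> simp [h1]
      linarith [h2 0, h2 1, h2 2]
    have hs : ∑ i, (![x 0, x 1, x 2, 1 - x 0 - x 1 - x 2] : Fin 4 → ℝ) i = 1 := by
      simp [Fin.sum_univ_four]
    have hz : ∀ i ∈ (Finset.univ : Finset (Fin 4)),
        (![Pi.single 0 1, Pi.single 1 1, Pi.single 2 1, 0] : Fin 4 → F3) i ∈ K := by
      intro i _
      fin_cases i
      · exact he 0
      · exact he 1
      · exact he 2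
      · exact h0
    have := hKv.sum_mem hw hs hz
    have hx' : ∑ i, (![x 0, x 1, x 2, 1 - x 0 - x 1 - x 2] : Fin 4 → ℝ) i •
        (![Pi.single 0 1, Pi.single 1 1, Pi.single 2 1, 0] : Fin 4 → F3) i = x := by
      ext j
      fin_cases j <;> simp [Fin.sum_univ_four]
    rwa [hx'] at this
  refine le_trans (le_of_eq ?_) (measure_mono hsub)
  rw [Real.volume_Icc_pi]
  simp only [Fin.prod_univ_three, Pi.zero_apply, sub_zero]
  rw [← ENNReal.ofReal_mul (by norm_num), ← ENNReal.ofReal_mul (by norm_num)]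
  norm_num

/-- the shadow has positive area -/
theorem shadow_pos (Φ : (Y2 × ℝ) ≃L[ℝ] F3) {K : Set F3} (hint : (interior K).Nonempty) :
    volume (shadow (Φ ⁻¹' K)) ≠ 0 := by
  obtain ⟨q, hq⟩ := hint
  have hopen : IsOpen (Prod.fst '' (Φ ⁻¹' interior K)) :=
    isOpenMap_fst _ (isOpen_interior.preimage Φ.continuous)
  have hne : (Prod.fst '' (Φ ⁻¹' interior K)).Nonempty :=
    ⟨(Φ.symm q).1, Φ.symm q, by simpa using hq, rfl⟩
  have hsub : Prod.fst '' (Φ ⁻¹' interior K) ⊆ shadow (Φ ⁻¹' K) :=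
    image_mono (preimage_mono interior_subset)
  exact (lt_of_lt_of_le (hopen.measure_pos volume hne) (measure_mono hsub)).ne'

/-- from the fiber bound to the bound on a cylinder -/
theorem per_cylinder (Φ : (Y2 × ℝ) ≃L[ℝ] F3) {K K0 : Set F3} (hKint : (interior K).Nonempty)
    (hKc : IsCompact K) (hK0 : MeasurableSet K0) {C : ENNReal}
    (hfiber : ∀ y : Y2, volume {t : ℝ | Φ (y, t) ∈ K0} * volume (shadow (Φ ⁻¹' K))
      ≤ C * volume (Φ ⁻¹' K)) {B : Set Y2} (hB : MeasurableSet B) :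
    volume (K0 ∩ {x | (Φ.symm x).1 ∈ B})
      ≤ C * volume K * (volume B / volume (shadow (Φ ⁻¹' K))) := by
  have hHaar : (volume : Measure (Y2 × ℝ)).IsAddHaarMeasure := by
    rw [Measure.volume_eq_prod]
    infer_instance
  obtain ⟨c, hc0, hct, hc⟩ := exists_factor (volume : Measure (Y2 × ℝ)) (volume : Measure F3) Φ
  obtain ⟨A, hA⟩ : ∃ A, A = volume (shadow (Φ ⁻¹' K)) := ⟨_, rfl⟩
  have hA0 : A ≠ 0 := by rw [hA]; exact shadow_pos Φ hKint
  have hAt : A ≠ ⊤ := by
    rw [hA]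
    exact (shadow_compact (pull_compact Φ hKc)).measure_lt_top.ne
  rw [← hA] at hfiber ⊢
  have hCyl : MeasurableSet {x : F3 | (Φ.symm x).1 ∈ B} := by
    have hcont : Continuous (fun x : F3 => (Φ.symm x).1) := by fun_prop
    exact hcont.measurable hB
  have hS : MeasurableSet (Φ ⁻¹' (K0 ∩ {x | (Φ.symm x).1 ∈ B})) :=
    Φ.continuous.measurable (hK0.inter hCyl)
  have hVc : volume (Φ ⁻¹' K) = c * volume K := hc K
  have hmain : volume (Φ ⁻¹' (K0 ∩ {x | (Φ.symm x).1 ∈ B})) ≤ C * (c * volume K) / A * volume B := by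
    rw [Measure.volume_eq_prod, Measure.prod_apply hS]
    calc ∫⁻ y, volume (Prod.mk y ⁻¹' (Φ ⁻¹' (K0 ∩ {x | (Φ.symm x).1 ∈ B})))
        ≤ ∫⁻ y, B.indicator (fun _ => C * (c * volume K) / A) y := by
          refine lintegral_mono fun y => ?_
          by_cases hy : y ∈ B
          · rw [indicator_of_mem hy]
            rw [ENNReal.le_div_iff_mul_le (Or.inl hA0) (Or.inl hAt), ← hVc]
            refine le_trans ?_ (hfiber y)
            gcongr
            intro t ht
            exact ht.1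
          · rw [indicator_of_notMem hy]
            have hempty : Prod.mk y ⁻¹' (Φ ⁻¹' (K0 ∩ {x | (Φ.symm x).1 ∈ B})) = ∅ := by
              apply Set.eq_empty_of_forall_notMem
              intro t ht
              apply hy
              have h2 := ht.2
              simpa using h2
            rw [hempty]
            simp
      _ = C * (c * volume K) / A * volume B := by
          rw [lintegral_indicator_const hB]
  rw [hc] at hmain
  have hgoal : c * volume (K0 ∩ {x | (Φ.symm x).1 ∈ B}) ≤ c * (C * volume K * (volume B / A)) := by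
    refine le_trans hmain (le_of_eq ?_)
    simp only [ENNReal.div_eq_inv_mul]
    ring
  exact (ENNReal.mul_le_mul_iff_right hc0 hct).mp hgoal

/-- the abstract core: summing over the cylinders -/
theorem core_abstract {K : Set F3} (hKc : IsCompact K) (hKv : Convex ℝ K)
    (hint : (interior K).Nonempty) (h0 : (0 : F3) ∈ K) (he : ∀ i, (Pi.single i 1 : F3) ∈ K)
    {ι : Type*} [Fintype ι] (Φ : ι → (Y2 × ℝ) ≃L[ℝ] F3) (B : ι → Set Y2)
    (hcov : K ⊆ ⋃ i, {x | ((Φ i).symm x).1 ∈ B i}) {W' : Set F3} (hW' : IsCompact W')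
    {q w ε : ℝ} (hq : 0 < q) (hε0 : 0 ≤ ε) (hw : volume W' ≤ ENNReal.ofReal w) (hw0 : 0 ≤ w)
    (hfinal : ε * q + 27 * w ≤ 1)
    (hfiber : ∀ i, ∀ y : Y2, volume {t : ℝ | Φ i (y, t) ∈ K \ W'} * volume (shadow (Φ i ⁻¹' K))
      ≤ ENNReal.ofReal q * volume (Φ i ⁻¹' K)) :
    ENNReal.ofReal ε ≤ ∑ i, volume (B i) / volume (shadow (Φ i ⁻¹' K)) := by
  classical
  obtain ⟨S, hS⟩ : ∃ S, S = ∑ i, volume (B i) / volume (shadow (Φ i ⁻¹' K)) := ⟨_, rfl⟩
  rw [← hS]
  have hK0 : MeasurableSet (K \ W') := hKc.measurableSet.diff hW'.measurableSet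
  -- measurable hulls
  have hstep : ∀ i, volume ((K \ W') ∩ {x | ((Φ i).symm x).1 ∈ toMeasurable volume (B i)})
      ≤ ENNReal.ofReal q * volume K * (volume (B i) / volume (shadow (Φ i ⁻¹' K))) := by
    intro i
    have := per_cylinder (Φ i) hint hKc hK0 (hfiber i) (measurableSet_toMeasurable volume (B i))
    rwa [measure_toMeasurable] at this
  have hK0cov : K \ W' ⊆ ⋃ i, ((K \ W') ∩ {x | ((Φ i).symm x).1 ∈ toMeasurable volume (B i)}) := by
    intro x hx
    obtain ⟨i, hi⟩ := mem_iUnion.mp (hcov hx.1)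
    exact mem_iUnion.mpr ⟨i, hx, subset_toMeasurable volume (B i) hi⟩
  have hsum : volume (K \ W') ≤ ENNReal.ofReal q * volume K * S := by
    calc volume (K \ W')
        ≤ volume (⋃ i, ((K \ W') ∩ {x | ((Φ i).symm x).1 ∈ toMeasurable volume (B i)})) :=
          measure_mono hK0cov
      _ ≤ ∑ i, volume ((K \ W') ∩ {x | ((Φ i).symm x).1 ∈ toMeasurable volume (B i)}) :=
          measure_iUnion_fintype_le _ _
      _ ≤ ∑ i, ENNReal.ofReal q * volume K * (volume (B i) / volume (shadow (Φ i ⁻¹' K))) :=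
          Finset.sum_le_sum fun i _ => hstep i
      _ = ENNReal.ofReal q * volume K * S := by rw [hS, Finset.mul_sum]
  have hVfin : volume K ≠ ⊤ := hKc.measure_lt_top.ne
  obtain ⟨V, hV⟩ : ∃ V, V = (volume K).toReal := ⟨_, rfl⟩
  have hVe : volume K = ENNReal.ofReal V := by rw [hV, ENNReal.ofReal_toReal hVfin]
  have hV27 : 1 / 27 ≤ V := by
    have h1 := volume_ge_27 hKv h0 he
    rw [hVe] at h1
    by_contra hcon
    push Not at hcon
    have hVpos : 0 < (1 / 27 : ℝ) := by norm_num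
    exact absurd h1 (not_le.mpr ((ENNReal.ofReal_lt_ofReal_iff hVpos).mpr hcon))
  have hVpos : 0 < V := by linarith
  have hlow : ENNReal.ofReal (V - w) ≤ volume (K \ W') := by
    have h1 : volume K ≤ volume (K \ W') + volume W' := by
      refine le_trans (measure_mono ?_) (measure_union_le _ _)
      intro x hx
      by_cases hxW : x ∈ W'
      · exact Or.inr hxW
      · exact Or.inl ⟨hx, hxW⟩
    have h2 : ENNReal.ofReal V ≤ volume (K \ W') + ENNReal.ofReal w := by
      rw [← hVe]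
      exact le_trans h1 (by gcongr)
    rw [ENNReal.ofReal_sub V hw0]
    exact tsub_le_iff_right.mpr h2
  have hqV : ENNReal.ofReal q * ENNReal.ofReal V ≠ 0 := by
    simp [hq, hVpos]
  have hqVt : ENNReal.ofReal q * ENNReal.ofReal V ≠ ⊤ := by
    simp [ENNReal.mul_eq_top]
  have hgoal : ENNReal.ofReal q * ENNReal.ofReal V * ENNReal.ofReal ε
      ≤ ENNReal.ofReal q * ENNReal.ofReal V * S := by
    rw [← hVe]
    refine le_trans ?_ (le_trans hlow hsum)
    rw [hVe, ← ENNReal.ofReal_mul hq.le, ← ENNReal.ofReal_mul (by positivity)]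
    apply ENNReal.ofReal_le_ofReal
    have h3 : 27 * w * V ≥ w := by nlinarith
    have h4 : (ε * q + 27 * w) * V ≤ 1 * V := mul_le_mul_of_nonneg_right hfinal hVpos.le
    nlinarith
  exact (ENNReal.mul_le_mul_iff_right hqV hqVt).mp hgoal

end Vale.Agent.Lib.P243w
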