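import Mathlib
import Vale.Agent.Lib.P243w.Core

open MeasureTheory Set
open scoped Matrix

namespace Vale.Agent.Lib.P243w

/-- the normalised core, with explicit constants -/
theorem core_normalized {K : Set F3} (hKc : IsCompact K) (hKv : Convex ℝ K)
    (hint : (interior K).Nonempty) (h0 : (0 : F3) ∈ K) (he : ∀ i, (Pi.single i 1 : F3) ∈ K)
    (hbox : ∀ x ∈ K, ∀ j, |x j| ≤ 1) {ι : Type*} [Fintype ι] (Φ : ι → (Y2 × ℝ) ≃L[ℝ] F3)
    (hu : ∀ i, Φ i (0, 1) ⬝ᵥ Φ i (0, 1) = 1) (B : ι → Set Y2)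
    (hcov : K ⊆ ⋃ i, {x | ((Φ i).symm x).1 ∈ B i}) :
    ENNReal.ofReal (1 / 3 + 1 / 10 ^ 59) ≤ ∑ i, volume (B i) / volume (shadow (Φ i ⁻¹' K)) := by
  have hW := volume_W_le (a := 2 * (7 / 10 ^ 48)) (c0 := 1 - (3 / 20000) ^ 2 / 2) (s := 43 / 500000)
    (h := 1 / 200000) (M := 200001) hKc h0 he hbox (by norm_num) (by norm_num) (by norm_num)
    (by norm_num) (by norm_num) (by norm_num) (by norm_num) (by norm_num)
  refine core_abstract hKc hKv hint h0 he Φ B hcov (W_compact hKc _ _)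
    (q := 3 * (1 - 1 / 10 ^ 58)) (by norm_num) (by norm_num) hW (by norm_num) (by norm_num) ?_
  intro i y
  exact per_fiber (Φ i) hKc hKv hint h0 he hbox (hu i) (a := 7 / 10 ^ 48)
    (c0 := 1 - (3 / 20000) ^ 2 / 2) (θ := 3 / 20000) (c := 3 / 10000) (r := 1 / 10 ^ 58)
    (NA := 132 * 10 ^ 54) (NB := 297 * 10 ^ 46)
    (by norm_num) (by norm_num) (by norm_num) (by norm_num) (by norm_num) (by norm_num)
    (by norm_num) (by norm_num) (by norm_num) (by norm_num) (by norm_num)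
    (by norm_num) (by norm_num) (by norm_num) (by norm_num) (by norm_num) y

/-- the matrix of edge vectors of a simplex -/
def edgeM (p : F3) (q : Fin 3 → F3) : Matrix (Fin 3) (Fin 3) ℝ := Matrix.of fun i j => q j i - p i

theorem continuous_edgeM_det :
    Continuous (fun z : F3 × (Fin 3 → F3) => |(edgeM z.1 z.2).det|) := by
  apply Continuous.abs
  apply Continuous.matrix_det
  apply continuous_matrix
  intro i j
  simp only [edgeM, Matrix.of_apply]
  fun_prop

/-- existence of the normalising affine map, from a simplex of maximal volume -/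
theorem exists_normalizer {K : Set F3} (hKc : IsCompact K) (hint : (interior K).Nonempty) :
    ∃ (p0 : F3) (T : F3 ≃L[ℝ] F3), p0 ∈ K ∧ (∀ j, T.symm (Pi.single j 1) + p0 ∈ K) ∧
      ∀ x ∈ K, ∀ j, |T (x - p0) j| ≤ 1 := by
  classical
  have hcomp : IsCompact (K ×ˢ (Set.pi univ fun _ : Fin 3 => K)) :=
    hKc.prod (isCompact_univ_pi fun _ => hKc)
  obtain ⟨w, hw⟩ := hint
  have hwK : w ∈ K := interior_subset hw
  have hne : (K ×ˢ (Set.pi univ fun _ : Fin 3 => K)).Nonempty :=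
    ⟨(w, fun _ => w), hwK, fun _ _ => hwK⟩
  obtain ⟨⟨p0, q0⟩, hmem, hmax⟩ := hcomp.exists_isMaxOn hne continuous_edgeM_det.continuousOn
  have hp0 : p0 ∈ K := hmem.1
  have hq0 : ∀ j, q0 j ∈ K := fun j => hmem.2 j (mem_univ j)
  have hmax' : ∀ p ∈ K, ∀ q : Fin 3 → F3, (∀ j, q j ∈ K) → |(edgeM p q).det| ≤ |(edgeM p0 q0).det| := by
    intro p hp q hq
    have hmem2 : (p, q) ∈ K ×ˢ (Set.pi univ fun _ : Fin 3 => K) := ⟨hp, fun j _ => hq j⟩
    exact isMaxOn_iff.mp hmax (p, q) hmem2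
  -- positivity of the determinant
  have hdet : (edgeM p0 q0).det ≠ 0 := by
    obtain ⟨ε, hε, hball⟩ := Metric.isOpen_iff.mp isOpen_interior w hw
    obtain ⟨δ, hδ0, hδ⟩ : ∃ δ : ℝ, 0 < δ ∧ δ < ε := ⟨ε / 2, by positivity, by linarith⟩
    have hmemq : ∀ j : Fin 3, w + δ • (Pi.single j 1 : F3) ∈ K := by
      intro j
      apply interior_subset
      apply hball
      rw [Metric.mem_ball, dist_eq_norm, add_sub_cancel_left, norm_smul]
      have : ‖(Pi.single j 1 : F3)‖ = 1 := by simp [Pi.norm_single]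
      rw [this, mul_one, Real.norm_eq_abs, abs_of_pos hδ0]
      exact hδ
    have h1 := hmax' w hwK (fun j => w + δ • (Pi.single j 1 : F3)) hmemq
    have h2 : edgeM w (fun j => w + δ • (Pi.single j 1 : F3))
        = δ • (1 : Matrix (Fin 3) (Fin 3) ℝ) := by
      ext i j
      simp only [edgeM, Matrix.of_apply, Pi.add_apply, Pi.smul_apply, smul_eq_mul, Matrix.smul_apply,
        Matrix.one_apply, Pi.single_apply]
      by_cases h : i = j
      · simp [h]
      · have h' : j ≠ i := fun e => h e.symm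
        simp [h]
    rw [h2, Matrix.det_smul, Matrix.det_one, mul_one] at h1
    intro h0
    rw [h0, abs_zero] at h1
    have : 0 < |δ ^ Fintype.card (Fin 3)| := by positivity
    linarith
  set M := edgeM p0 q0 with hM
  have hunit : IsUnit M.det := isUnit_iff_ne_zero.mpr hdet
  have hMinv : M * M⁻¹ = 1 := Matrix.mul_nonsing_inv M hunit
  have hMinv' : M⁻¹ * M = 1 := Matrix.nonsing_inv_mul M hunit
  let T0 : F3 ≃ₗ[ℝ] F3 := Matrix.toLin'OfInv hMinv hMinv'
  let T : F3 ≃L[ℝ] F3 := T0.toContinuousLinearEquiv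
  have hT : ∀ x, T x = M⁻¹ *ᵥ x := fun x => rfl
  have hTs : ∀ x, T.symm x = M *ᵥ x := fun x => rfl
  refine ⟨p0, T, hp0, ?_, ?_⟩
  · intro j
    have : T.symm (Pi.single j 1) + p0 = q0 j := by
      rw [hTs]
      ext i
      simp [hM, edgeM]
    rw [this]
    exact hq0 j
  · intro x hx j
    rw [hT]
    have h1 : M⁻¹ *ᵥ (x - p0) = (M.det)⁻¹ • M.cramer (x - p0) := by
      rw [Matrix.cramer_eq_adjugate_mulVec, Matrix.inv_def, Ring.inverse_eq_inv', Matrix.smul_mulVec]
    rw [h1, Pi.smul_apply, smul_eq_mul, Matrix.cramer_apply, abs_mul, abs_inv]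
    have h2 : M.updateCol j (x - p0) = edgeM p0 (Function.update q0 j x) := by
      ext i k
      by_cases hk : k = j
      · subst hk
        simp [edgeM]
      · simp [hM, edgeM, hk]
    rw [h2]
    have h3 := hmax' p0 hp0 (Function.update q0 j x) (by
      intro k
      by_cases hk : k = j
      · subst hk
        simpa using hx
      · simpa [hk] using hq0 k)
    have h4 : 0 < |M.det| := abs_pos.mpr hdet
    rw [inv_mul_le_iff₀ h4, mul_one]
    exact h3

/-- rescaling the fibre coordinate -/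
noncomputable def scaleT (l : ℝ) (hl : l ≠ 0) : (Y2 × ℝ) ≃L[ℝ] (Y2 × ℝ) :=
  ContinuousLinearEquiv.equivOfInverse
    ((ContinuousLinearMap.fst ℝ Y2 ℝ).prod (l • ContinuousLinearMap.snd ℝ Y2 ℝ))
    ((ContinuousLinearMap.fst ℝ Y2 ℝ).prod (l⁻¹ • ContinuousLinearMap.snd ℝ Y2 ℝ))
    (by intro x; simp [hl]) (by intro x; simp [hl])

theorem scaleT_apply (l : ℝ) (hl : l ≠ 0) (y : Y2) (t : ℝ) : scaleT l hl (y, t) = (y, l * t) := by
  simp [scaleT]

theorem scaleT_symm_fst (l : ℝ) (hl : l ≠ 0) (z : Y2 × ℝ) : ((scaleT l hl).symm z).1 = z.1 := by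
  simp [scaleT]

/-- the affine invariant form of the core theorem -/
theorem core_affine {K : Set F3} (hKc : IsCompact K) (hKv : Convex ℝ K)
    (hint : (interior K).Nonempty) {ι : Type*} [Fintype ι] (Φ : ι → (Y2 × ℝ) ≃L[ℝ] F3)
    (B : ι → Set Y2) (hcov : K ⊆ ⋃ i, {x | ((Φ i).symm x).1 ∈ B i}) :
    ENNReal.ofReal (1 / 3 + 1 / 10 ^ 59) ≤ ∑ i, volume (B i) / volume (shadow (Φ i ⁻¹' K)) := by
  obtain ⟨p0, T, hp0, he, hbox⟩ := exists_normalizer hKc hint
  obtain ⟨K', hK'⟩ : ∃ K', K' = (fun x => T (x - p0)) '' K := ⟨_, rfl⟩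
  have hK'c : IsCompact K' := by
    rw [hK']
    exact hKc.image (by fun_prop)
  have hK'v : Convex ℝ K' := by
    rw [hK']
    rintro _ ⟨x, hx, rfl⟩ _ ⟨y, hy, rfl⟩ a b ha hb hab
    refine ⟨a • x + b • y, hKv hx hy ha hb hab, ?_⟩
    simp only
    rw [← map_smul, ← map_smul, ← map_add]
    congr 1
    have : p0 = (a + b) • p0 := by rw [hab, one_smul]
    conv_lhs => rw [this]
    rw [add_smul, smul_sub, smul_sub]
    abel
  have hK'int : (interior K').Nonempty := by
    obtain ⟨q, hq⟩ := hint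
    have hopen : IsOpen {z : F3 | T.symm z + p0 ∈ interior K} := by
      apply isOpen_interior.preimage
      fun_prop
    have hsub : {z : F3 | T.symm z + p0 ∈ interior K} ⊆ K' := by
      intro z hz
      rw [hK']
      refine ⟨T.symm z + p0, interior_subset hz, ?_⟩
      simp
    refine ⟨T (q - p0), interior_maximal hsub hopen ?_⟩
    show T.symm (T (q - p0)) + p0 ∈ interior K
    simpa using hq
  have h0' : (0 : F3) ∈ K' := by
    rw [hK']
    exact ⟨p0, hp0, by simp⟩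
  have he' : ∀ j, (Pi.single j 1 : F3) ∈ K' := by
    intro j
    rw [hK']
    exact ⟨_, he j, by simp⟩
  have hbox' : ∀ x ∈ K', ∀ j, |x j| ≤ 1 := by
    rw [hK']
    rintro _ ⟨x, hx, rfl⟩ j
    exact hbox x hx j
  -- the new charts
  have hne : ∀ i, T (Φ i (0, 1)) ≠ 0 := by
    intro i h
    have h1 : Φ i (0, 1) = 0 := T.map_eq_zero_iff.mp h
    have h2 : ((0 : Y2), (1 : ℝ)) = 0 := (Φ i).map_eq_zero_iff.mp h1
    have h3 := congrArg Prod.snd h2
    simp at h3
  choose l hl hunit using fun i => exists_unit_smul (hne i)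
  let Φ' : ι → (Y2 × ℝ) ≃L[ℝ] F3 := fun i => (scaleT (l i) (hl i).ne').trans ((Φ i).trans T)
  have hΦ' : ∀ i y t, Φ' i (y, t) = T (Φ i (y, l i * t)) := by
    intro i y t
    show T (Φ i (scaleT (l i) (hl i).ne' (y, t))) = _
    rw [scaleT_apply]
  have hu' : ∀ i, Φ' i (0, 1) ⬝ᵥ Φ' i (0, 1) = 1 := by
    intro i
    have : Φ' i (0, 1) = l i • T (Φ i (0, 1)) := by
      rw [hΦ', ← map_smul, ← map_smul]
      simp
    rw [this]
    exact hunit i
  have hsymm : ∀ i x, ((Φ' i).symm x).1 = ((Φ i).symm (T.symm x)).1 := by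
    intro i x
    show ((scaleT (l i) (hl i).ne').symm ((Φ i).symm (T.symm x))).1 = _
    rw [scaleT_symm_fst]
  have hp0eq : ∀ i, Φ i (((Φ i).symm p0).1, ((Φ i).symm p0).2) = p0 := by
    intro i
    simp
  have hadd : ∀ i z s, Φ i (z + ((Φ i).symm p0).1, s + ((Φ i).symm p0).2) = Φ i (z, s) + p0 := by
    intro i z s
    conv_rhs => rw [← hp0eq i]
    rw [← map_add]
    rfl
  have hcov' : K' ⊆ ⋃ i, {x | ((Φ' i).symm x).1 ∈ (fun z => z + ((Φ i).symm p0).1) ⁻¹' B i} := by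
    rw [hK']
    rintro _ ⟨x, hx, rfl⟩
    obtain ⟨i, hi⟩ := mem_iUnion.mp (hcov hx)
    refine mem_iUnion.mpr ⟨i, ?_⟩
    show ((Φ' i).symm (T (x - p0))).1 + ((Φ i).symm p0).1 ∈ B i
    rw [hsymm, ContinuousLinearEquiv.symm_apply_apply, map_sub]
    simpa using hi
  have hshadow : ∀ i, shadow (Φ' i ⁻¹' K')
      = (fun z => z + ((Φ i).symm p0).1) ⁻¹' shadow (Φ i ⁻¹' K) := by
    intro i
    ext z
    constructor
    · rintro ⟨⟨z', t⟩, hz, rfl⟩
      have hz' : Φ' i (z', t) ∈ K' := hz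
      rw [hK', hΦ'] at hz'
      obtain ⟨x, hx, hxe⟩ := hz'
      have hxe' : x - p0 = Φ i (z', l i * t) := T.injective hxe
      have hxe2 : x = Φ i (z' + ((Φ i).symm p0).1, l i * t + ((Φ i).symm p0).2) := by
        rw [hadd, ← hxe']
        abel
      refine ⟨(z' + ((Φ i).symm p0).1, l i * t + ((Φ i).symm p0).2), ?_, rfl⟩
      show Φ i _ ∈ K
      rw [← hxe2]
      exact hx
    · rintro ⟨⟨w, t'⟩, hw, hwe⟩
      have hw' : Φ i (w, t') ∈ K := hw
      simp only at hwe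
      rw [hwe] at hw'
      refine ⟨(z, (t' - ((Φ i).symm p0).2) / l i), ?_, rfl⟩
      show Φ' i _ ∈ K'
      rw [hK', hΦ']
      refine ⟨_, hw', ?_⟩
      simp only
      have h1 : l i ≠ 0 := (hl i).ne'
      have h2 : l i * ((t' - ((Φ i).symm p0).2) / l i) = t' - ((Φ i).symm p0).2 := by
        field_simp
      have h3 : Φ i (z + ((Φ i).symm p0).1, t') = Φ i (z, t' - ((Φ i).symm p0).2) + p0 := by
        rw [← hadd, sub_add_cancel]
      rw [h2, h3, add_sub_cancel_right]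
  have hmain := core_normalized hK'c hK'v hK'int h0' he' hbox' Φ' hu'
    (fun i => (fun z => z + ((Φ i).symm p0).1) ⁻¹' B i) hcov'
  refine le_trans hmain (le_of_eq ?_)
  refine Finset.sum_congr rfl fun i _ => ?_
  rw [hshadow, measure_preimage_add_right, measure_preimage_add_right]

end Vale.Agent.Lib.P243w
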