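import Mathlib
import Vale.Agent.Lib.P243w.Normalize

open MeasureTheory Set
open scoped Matrix

namespace Vale.Agent.Lib.P243w

/-- the linear chart given by an orthonormal frame -/
noncomputable def frameMap (u v w : F3) : (Y2 × ℝ) →ₗ[ℝ] F3 where
  toFun z := z.1 0 • v + z.1 1 • w + z.2 • u
  map_add' := by
    intro x y
    ext j
    simp only [Prod.fst_add, Prod.snd_add, Pi.add_apply, Pi.smul_apply, smul_eq_mul]
    ring
  map_smul' := by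
    intro c x
    ext j
    simp only [Prod.smul_fst, Prod.smul_snd, Pi.add_apply, Pi.smul_apply, smul_eq_mul,
      RingHom.id_apply]
    ring

theorem frameMap_apply (u v w : F3) (y : Y2) (t : ℝ) :
    frameMap u v w (y, t) = y 0 • v + y 1 • w + t • u := rfl

theorem frameMap_injective {u v w : F3} (huu : u ⬝ᵥ u = 1) (hvv : v ⬝ᵥ v = 1) (hww : w ⬝ᵥ w = 1)
    (huv : u ⬝ᵥ v = 0) (huw : u ⬝ᵥ w = 0) (hvw : v ⬝ᵥ w = 0) :
    Function.Injective (frameMap u v w) := by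
  rw [injective_iff_map_eq_zero]
  rintro ⟨y, t⟩ h
  rw [frameMap_apply] at h
  have hwv : w ⬝ᵥ v = 0 := by rw [dotProduct_comm]; exact hvw
  have hvu : v ⬝ᵥ u = 0 := by rw [dotProduct_comm]; exact huv
  have hwu : w ⬝ᵥ u = 0 := by rw [dotProduct_comm]; exact huw
  have h1 : (y 0 • v + y 1 • w + t • u) ⬝ᵥ v = 0 := by rw [h]; simp
  have h2 : (y 0 • v + y 1 • w + t • u) ⬝ᵥ w = 0 := by rw [h]; simp
  have h3 : (y 0 • v + y 1 • w + t • u) ⬝ᵥ u = 0 := by rw [h]; simp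
  simp only [add_dotProduct, smul_dotProduct, smul_eq_mul, hvv, hww, huu, huv, huw, hvw, hwv, hvu,
    hwu, mul_zero, mul_one, add_zero, zero_add] at h1 h2 h3
  ext j
  · fin_cases j
    · simpa using h1
    · simpa using h2
  · simpa using h3

theorem finrank_eq_aux : Module.finrank ℝ (Y2 × ℝ) = Module.finrank ℝ F3 := by
  simp

/-- the chart as a continuous linear equivalence -/
noncomputable def frameChart {u v w : F3} (huu : u ⬝ᵥ u = 1) (hvv : v ⬝ᵥ v = 1) (hww : w ⬝ᵥ w = 1)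
    (huv : u ⬝ᵥ v = 0) (huw : u ⬝ᵥ w = 0) (hvw : v ⬝ᵥ w = 0) : (Y2 × ℝ) ≃L[ℝ] F3 :=
  (LinearMap.linearEquivOfInjective (frameMap u v w)
    (frameMap_injective huu hvv hww huv huw hvw) finrank_eq_aux).toContinuousLinearEquiv

theorem frameChart_apply {u v w : F3} (huu : u ⬝ᵥ u = 1) (hvv : v ⬝ᵥ v = 1) (hww : w ⬝ᵥ w = 1)
    (huv : u ⬝ᵥ v = 0) (huw : u ⬝ᵥ w = 0) (hvw : v ⬝ᵥ w = 0) (y : Y2) (t : ℝ) :
    frameChart huu hvv hww huv huw hvw (y, t) = y 0 • v + y 1 • w + t • u := rfl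

/-- the final statement -/
theorem final_bound (K : Set F3) (hK : IsCompact K) (hconv : Convex ℝ K)
    (hint : (interior K).Nonempty) {ι : Type*} [Fintype ι] (u v w : ι → F3)
    (huu : ∀ i, u i ⬝ᵥ u i = 1) (hvv : ∀ i, v i ⬝ᵥ v i = 1) (hww : ∀ i, w i ⬝ᵥ w i = 1)
    (huv : ∀ i, u i ⬝ᵥ v i = 0) (huw : ∀ i, u i ⬝ᵥ w i = 0) (hvw : ∀ i, v i ⬝ᵥ w i = 0)
    (B : ι → Set Y2)
    (hcov : K ⊆ ⋃ i, {x | ∃ b ∈ B i, ∃ t : ℝ, x = b 0 • v i + b 1 • w i + t • u i}) :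
    ENNReal.ofReal (1 / 3 + 1 / 10 ^ 59) ≤
      ∑ i, volume (B i) /
        volume {b : Y2 | ∃ x ∈ K, ∃ t : ℝ, x = b 0 • v i + b 1 • w i + t • u i} := by
  let Φ : ι → (Y2 × ℝ) ≃L[ℝ] F3 := fun i =>
    frameChart (huu i) (hvv i) (hww i) (huv i) (huw i) (hvw i)
  have hΦ : ∀ i y t, Φ i (y, t) = y 0 • v i + y 1 • w i + t • u i := fun i y t => rfl
  have hcov' : K ⊆ ⋃ i, {x | ((Φ i).symm x).1 ∈ B i} := by
    intro x hx
    obtain ⟨i, b, hb, t, hxe⟩ := mem_iUnion.mp (hcov hx)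
    refine mem_iUnion.mpr ⟨i, ?_⟩
    show ((Φ i).symm x).1 ∈ B i
    rw [← hΦ] at hxe
    rw [hxe]
    simpa using hb
  have hmain := core_affine hK hconv hint Φ B hcov'
  refine le_trans hmain (le_of_eq ?_)
  refine Finset.sum_congr rfl fun i _ => ?_
  have hshadow : shadow (Φ i ⁻¹' K)
      = {b : Y2 | ∃ x ∈ K, ∃ t : ℝ, x = b 0 • v i + b 1 • w i + t • u i} := by
    ext z
    constructor
    · rintro ⟨⟨z', t⟩, hz, rfl⟩
      exact ⟨Φ i (z', t), hz, t, rfl⟩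
    · rintro ⟨x, hx, t, hxe⟩
      rw [← hΦ] at hxe
      refine ⟨(z, t), ?_, rfl⟩
      show Φ i (z, t) ∈ K
      rw [← hxe]
      exact hx
  rw [hshadow]

end Vale.Agent.Lib.P243w
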